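import Mathlib

/-! Definitions for the three-marginal Coulomb transport problem. -/

namespace Vale.Agent.P121

open MeasureTheory

/-- Euclidean three-space. -/
abbrev E := EuclideanSpace ℝ (Fin 3)

/-- The Coulomb cost `1/|x-y| + 1/|x-z| + 1/|y-z|` with values in `[0,∞]`. The inverse of the
extended distance `0` is `∞`, so the cost is `∞` when two of the three points coincide. -/
noncomputable def coulomb (x y z : E) : ENNReal :=
  (edist x y)⁻¹ + (edist x z)⁻¹ + (edist y z)⁻¹

/-- `π` is a probability measure on `E × E × E` whose three marginals all equal `μ`. -/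
def IsPlan (μ : Measure E) (π : Measure (E × E × E)) : Prop :=
  IsProbabilityMeasure π ∧ π.map (fun w => w.1) = μ ∧ π.map (fun w => w.2.1) = μ ∧
    π.map (fun w => w.2.2) = μ

/-- The Kantorovich value: the infimum of the total cost over all plans. -/
noncomputable def kantorovich (μ : Measure E) : ENNReal :=
  ⨅ (π : Measure (E × E × E)) (_ : IsPlan μ π), ∫⁻ w, coulomb w.1 w.2.1 w.2.2 ∂π

end Vale.Agent.P121
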