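import Vale.Agent.P121.Local

/-! The dual potential and its feasibility. -/

namespace Vale.Agent.P121

open Real Filter Topology InnerProductSpace MeasureTheory Set
open scoped RealInnerProductSpace ENNReal

/-- Real version of the cost. -/
noncomputable def Cr (x y z : E) : ℝ := ‖x - y‖⁻¹ + ‖x - z‖⁻¹ + ‖y - z‖⁻¹

lemma inv_edist {x y : E} (h : x ≠ y) : (edist x y)⁻¹ = ENNReal.ofReal (‖x - y‖⁻¹) := by
  rw [edist_dist, dist_eq_norm, ENNReal.ofReal_inv_of_pos]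
  exact norm_pos_iff.mpr (sub_ne_zero.mpr h)

lemma coulomb_eq {x y z : E} (h1 : x ≠ y) (h2 : x ≠ z) (h3 : y ≠ z) :
    coulomb x y z = ENNReal.ofReal (Cr x y z) := by
  unfold coulomb Cr
  rw [inv_edist h1, inv_edist h2, inv_edist h3, ENNReal.ofReal_add (by positivity) (by positivity),
    ENNReal.ofReal_add (by positivity) (by positivity)]

lemma coulomb_top {x y z : E} (h : x = y ∨ x = z ∨ y = z) : coulomb x y z = ⊤ := by
  unfold coulomb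
  rcases h with h | h | h <;> simp [h]

lemma le_coulomb {x y z : E} {s : ℝ} (h : x ≠ y → x ≠ z → y ≠ z → s ≤ Cr x y z) :
    ENNReal.ofReal s ≤ coulomb x y z := by
  by_cases h0 : x = y ∨ x = z ∨ y = z
  · rw [coulomb_top h0]; exact le_top
  · push Not at h0
    rw [coulomb_eq h0.1 h0.2.1 h0.2.2]
    exact ENNReal.ofReal_le_ofReal (h h0.1 h0.2.1 h0.2.2)

lemma lt_coulomb {x y z : E} {s : ℝ} (h : x ≠ y → x ≠ z → y ≠ z → s < Cr x y z) :
    ENNReal.ofReal s < coulomb x y z := by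
  by_cases h0 : x = y ∨ x = z ∨ y = z
  · rw [coulomb_top h0]; exact ENNReal.ofReal_lt_top
  · push Not at h0
    rw [coulomb_eq h0.1 h0.2.1 h0.2.2]
    have hpos : 0 < Cr x y z := by
      unfold Cr
      have := norm_pos_iff.mpr (sub_ne_zero.mpr h0.1)
      positivity
    exact (ENNReal.ofReal_lt_ofReal_iff hpos).mpr (h h0.1 h0.2.1 h0.2.2)

lemma coulomb_swap12 (x y z : E) : coulomb x y z = coulomb y x z := by
  unfold coulomb; rw [edist_comm x y]; ring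

lemma coulomb_swap23 (x y z : E) : coulomb x y z = coulomb x z y := by
  unfold coulomb; rw [edist_comm y z]; ring

noncomputable def uu (a : E) : ℝ := 2 - 50 * ‖a‖ ^ 2
noncomputable def ww (n c : E) : ℝ := 1/4 + 5/4 * ⟪n, c + n⟫ - 50 * ‖c + n‖ ^ 2

/-- The quadratic gap inequality. -/
lemma gap (n a b c a' c' : E) (hab : 1/2 ≤ ‖a - b‖) (hac : 1/2 ≤ ‖a - c‖) (hcb : 1/2 ≤ ‖c - b‖)
    (e1 : kap (b - a) + kap (c - a) = -(100 : ℝ) • a)
    (e2 : kap (a - c) + kap (b - c) = (5/4 : ℝ) • n - (100 : ℝ) • (c + n))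
    (h1 : a' ≠ b) (h2 : a' ≠ c') (h3 : c' ≠ b) :
    uu a' + (Cr a b c - uu a - ww n c) + ww n c' + (‖a' - a‖ ^ 2 + ‖c' - c‖ ^ 2) ≤ Cr a' b c' := by
  have n1 : a - b ≠ 0 := by intro h; rw [h, norm_zero] at hab; norm_num at hab
  have n2 : a - c ≠ 0 := by intro h; rw [h, norm_zero] at hac; norm_num at hac
  have n3 : c - b ≠ 0 := by intro h; rw [h, norm_zero] at hcb; norm_num at hcb
  have i1 := inv_norm_ge (a - b) (a' - b) n1 (sub_ne_zero.mpr h1)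
  have i2 := inv_norm_ge (a - c) (a' - c') n2 (sub_ne_zero.mpr h2)
  have i3 := inv_norm_ge (c - b) (c' - b) n3 (sub_ne_zero.mpr h3)
  obtain ⟨p, hp⟩ : ∃ p, p = a' - a := ⟨_, rfl⟩
  obtain ⟨q, hq⟩ : ∃ q, q = c' - c := ⟨_, rfl⟩
  have d1 : a' - b - (a - b) = p := by rw [hp]; abel
  have d2 : a' - c' - (a - c) = p - q := by rw [hp, hq]; abel
  have d3 : c' - b - (c - b) = q := by rw [hq]; abel
  rw [d1] at i1
  rw [d2] at i2
  rw [d3] at i3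
  have ea' : a' = a + p := by rw [hp]; abel
  have ec' : c' + n = (c + n) + q := by rw [hq]; abel
  -- cubes
  have cub : ∀ t : ℝ, 1/2 ≤ t → (2 * t ^ 3)⁻¹ ≤ 4 := by
    intro t ht
    have : (1/4 : ℝ) ≤ 2 * t ^ 3 := by nlinarith [mul_self_nonneg t, sq_nonneg (t - 1/2), pow_le_pow_left₀ (by norm_num : (0:ℝ) ≤ 1/2) ht 3]
    calc (2 * t ^ 3)⁻¹ ≤ (1/4 : ℝ)⁻¹ := inv_anti₀ (by norm_num) this
      _ = 4 := by norm_num
  have q1 : ‖p‖ ^ 2 / (2 * ‖a - b‖ ^ 3) ≤ 4 * ‖p‖ ^ 2 := by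
    rw [div_eq_mul_inv, mul_comm]; exact mul_le_mul_of_nonneg_right (cub _ hab) (sq_nonneg _)
  have q2 : ‖p - q‖ ^ 2 / (2 * ‖a - c‖ ^ 3) ≤ 4 * ‖p - q‖ ^ 2 := by
    rw [div_eq_mul_inv, mul_comm]; exact mul_le_mul_of_nonneg_right (cub _ hac) (sq_nonneg _)
  have q3 : ‖q‖ ^ 2 / (2 * ‖c - b‖ ^ 3) ≤ 4 * ‖q‖ ^ 2 := by
    rw [div_eq_mul_inv, mul_comm]; exact mul_le_mul_of_nonneg_right (cub _ hcb) (sq_nonneg _)
  have q4 : ‖p - q‖ ^ 2 ≤ 2 * ‖p‖ ^ 2 + 2 * ‖q‖ ^ 2 := by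
    have := parallelogram_law_with_norm ℝ p q
    nlinarith [sq_nonneg ‖p + q‖]
  -- linear terms
  have l1 : ⟪kap (a - b), p⟫ + ⟪kap (a - c), p⟫ = 100 * ⟪a, p⟫ := by
    have h := congrArg (fun v => ⟪v, p⟫) e1
    simp only [inner_add_left, real_inner_smul_left] at h
    have k1 : kap (b - a) = - kap (a - b) := by rw [← kap_neg]; congr 1; abel
    have k2 : kap (c - a) = - kap (a - c) := by rw [← kap_neg]; congr 1; abel
    rw [k1, k2, inner_neg_left, inner_neg_left] at h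
    linarith
  have l2 : ⟪kap (a - c), q⟫ - ⟪kap (c - b), q⟫ = 5/4 * ⟪n, q⟫ - 100 * ⟪c + n, q⟫ := by
    have h := congrArg (fun v => ⟪v, q⟫) e2
    simp only [inner_add_left, inner_sub_left, real_inner_smul_left] at h
    have k1 : kap (b - c) = - kap (c - b) := by rw [← kap_neg]; congr 1; abel
    rw [k1, inner_neg_left] at h
    rw [inner_add_left]
    linarith
  have l3 : ⟪kap (a - c), p - q⟫ = ⟪kap (a - c), p⟫ - ⟪kap (a - c), q⟫ := inner_sub_right _ _ _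
  rw [l3] at i2
  have u1 : ‖a'‖ ^ 2 = ‖a‖ ^ 2 + 2 * ⟪a, p⟫ + ‖p‖ ^ 2 := by rw [ea', norm_add_sq_real]
  have u2 : ‖c' + n‖ ^ 2 = ‖c + n‖ ^ 2 + 2 * ⟪c + n, q⟫ + ‖q‖ ^ 2 := by
    rw [ec', norm_add_sq_real]
  have u3 : ⟪n, c' + n⟫ = ⟪n, c + n⟫ + ⟪n, q⟫ := by rw [ec', inner_add_right]
  have s1 : ‖b - c‖ = ‖c - b‖ := norm_sub_rev _ _
  have s2 : ‖b - c'‖ = ‖c' - b‖ := norm_sub_rev _ _
  unfold Cr uu ww
  rw [s1, s2, u1, u2, u3, ← hp, ← hq]
  nlinarith [sq_nonneg ‖p‖, sq_nonneg ‖q‖]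

end Vale.Agent.P121
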