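import Vale.Agent.P121.Dual

/-! Feasibility of the potential on all triples of clusters. -/

namespace Vale.Agent.P121

open Real Filter Topology InnerProductSpace MeasureTheory Set
open scoped RealInnerProductSpace ENNReal

abbrev K := Option (Fin 2 × Bool)

noncomputable def nn (i : Fin 2) : E := if i = 0 then EuclideanSpace.single 0 1 else EuclideanSpace.single 1 1

lemma nn_norm (i : Fin 2) : ‖nn i‖ = 1 := by
  unfold nn; split_ifs <;> simp

lemma nn_inner {i j : Fin 2} (h : i ≠ j) : ⟪nn i, nn j⟫ = 0 := by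
  have h1 : ⟪(EuclideanSpace.single 0 1 : E), EuclideanSpace.single 1 1⟫ = 0 := by
    rw [EuclideanSpace.inner_single_left]
    simp
  have h2 : ⟪(EuclideanSpace.single 1 1 : E), EuclideanSpace.single 0 1⟫ = 0 := by
    rw [EuclideanSpace.inner_single_left]
    simp
  fin_cases i <;> fin_cases j
  · exact absurd rfl h
  · simpa [nn] using h1
  · simpa [nn] using h2
  · exact absurd rfl h

def FF (b c : Fin 2 → E → E) : K → E → E
  | none => id
  | some (i, true) => b i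
  | some (i, false) => c i

noncomputable def PP : K → E
  | none => 0
  | some (i, true) => nn i
  | some (i, false) => -nn i

noncomputable def ff (b c : Fin 2 → E → E) : K → E → ℝ
  | none => uu
  | some (i, true) => fun a => Cr a (b i a) (c i a) - uu a - ww (nn i) (c i a)
  | some (i, false) => fun a => ww (nn i) (c i a)

section
variable {ρ : ℝ} {b c : Fin 2 → E → E} (hρ : ρ ≤ 1/200) (hF : ∀ i, Fam (nn i) ρ (b i) (c i))
include hρ hF

lemma near (k : K) {a : E} (ha : a ∈ Metric.ball (0 : E) ρ) : ‖FF b c k a - PP k‖ < 1/200 := by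
  rcases k with _ | ⟨i, s⟩
  · simp only [FF, PP, id, sub_zero]
    have := mem_ball_zero_iff.mp ha
    linarith
  · cases s
    · simp only [FF, PP, sub_neg_eq_add]; exact (hF i).cn a ha
    · simp only [FF, PP]; exact (hF i).bn a ha

lemma dist_upper (k l : K) {a a' : E} (ha : a ∈ Metric.ball (0 : E) ρ)
    (ha' : a' ∈ Metric.ball (0 : E) ρ) :
    ‖FF b c k a - FF b c l a'‖ < ‖PP k - PP l‖ + 1/100 := by
  have h1 := near hρ hF k ha
  have h2 := near hρ hF l ha'
  have : FF b c k a - FF b c l a' = (FF b c k a - PP k) + (PP k - PP l) - (FF b c l a' - PP l) := by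
    abel
  rw [this]
  have h3 := norm_sub_le ((FF b c k a - PP k) + (PP k - PP l)) (FF b c l a' - PP l)
  have h4 := norm_add_le (FF b c k a - PP k) (PP k - PP l)
  linarith

lemma dist_lower (k l : K) {a a' : E} (ha : a ∈ Metric.ball (0 : E) ρ)
    (ha' : a' ∈ Metric.ball (0 : E) ρ) :
    ‖PP k - PP l‖ - 1/100 < ‖FF b c k a - FF b c l a'‖ := by
  have h1 := near hρ hF k ha
  have h2 := near hρ hF l ha'
  have : PP k - PP l = (FF b c k a - FF b c l a') - (FF b c k a - PP k) + (FF b c l a' - PP l) := by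
    abel
  have h3 := norm_add_le ((FF b c k a - FF b c l a') - (FF b c k a - PP k)) (FF b c l a' - PP l)
  have h4 := norm_sub_le (FF b c k a - FF b c l a') (FF b c k a - PP k)
  rw [← this] at h3
  linarith

omit hρ hF in
lemma PP_some (p : Fin 2 × Bool) : ‖PP (some p)‖ = 1 := by
  rcases p with ⟨i, s⟩; cases s <;> simp [PP, nn_norm]

omit hρ hF in
lemma PP_le (k : K) : ‖PP k‖ ≤ 1 := by
  rcases k with _ | p
  · simp [PP]
  · rw [PP_some]

omit hρ hF in
lemma PP_opp (i : Fin 2) : ‖PP (some (i, true)) - PP (some (i, false))‖ = 2 := by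
  simp only [PP, sub_neg_eq_add, ← two_smul ℝ (nn i), norm_smul, nn_norm]; norm_num

omit hρ hF in
lemma PP_perp {i j : Fin 2} (h : i ≠ j) (s t : Bool) :
    ‖PP (some (i, s)) - PP (some (j, t))‖ ^ 2 = 2 := by
  have h0 : ⟪PP (some (i, s)), PP (some (j, t))⟫ = 0 := by
    cases s <;> cases t <;> simp [PP, nn_inner h]
  rw [norm_sub_sq_real, h0, PP_some, PP_some]; norm_num

omit hF hρ in
lemma inv_lower {x D : ℝ} (h : x < D) (hx : 0 < x) : D⁻¹ ≤ x⁻¹ := inv_anti₀ hx h.le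

lemma label_dists (i : Fin 2) {a : E} (ha : a ∈ Metric.ball (0 : E) ρ) :
    99/100 < ‖a - b i a‖ ∧ 99/100 < ‖a - c i a‖ ∧ 199/100 < ‖b i a - c i a‖ ∧
    ‖a - b i a‖ < 101/100 ∧ ‖a - c i a‖ < 101/100 ∧ ‖b i a - c i a‖ < 201/100 := by
  have p1 : ‖PP none - PP (some (i, true))‖ = 1 := by
    simp only [PP, zero_sub, norm_neg, nn_norm]
  have p2 : ‖PP none - PP (some (i, false))‖ = 1 := by
    simp only [PP, zero_sub, norm_neg, nn_norm]
  have p3 := PP_opp i
  have l1 := dist_lower hρ hF none (some (i, true)) ha ha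
  have l2 := dist_lower hρ hF none (some (i, false)) ha ha
  have l3 := dist_lower hρ hF (some (i, true)) (some (i, false)) ha ha
  have u1 := dist_upper hρ hF none (some (i, true)) ha ha
  have u2 := dist_upper hρ hF none (some (i, false)) ha ha
  have u3 := dist_upper hρ hF (some (i, true)) (some (i, false)) ha ha
  rw [p1] at l1 u1
  rw [p2] at l2 u2
  rw [p3] at l3 u3
  simp only [FF, id] at l1 l2 l3 u1 u2 u3
  refine ⟨by linarith, by linarith, by linarith, by linarith, by linarith, by linarith⟩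

lemma uu_bounds {a : E} (ha : a ∈ Metric.ball (0 : E) ρ) : 199/100 ≤ uu a ∧ uu a ≤ 2 := by
  have h : ‖a‖ < 1/200 := lt_of_lt_of_le (mem_ball_zero_iff.mp ha) hρ
  unfold uu
  constructor
  · nlinarith [norm_nonneg a]
  · nlinarith [sq_nonneg ‖a‖]

lemma ww_bounds (i : Fin 2) {a : E} (ha : a ∈ Metric.ball (0 : E) ρ) :
    24/100 ≤ ww (nn i) (c i a) ∧ ww (nn i) (c i a) ≤ 26/100 := by
  have h := (hF i).cn a ha
  have h1 : |⟪nn i, c i a + nn i⟫| ≤ ‖nn i‖ * ‖c i a + nn i‖ := abs_real_inner_le_norm _ _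
  rw [nn_norm, one_mul] at h1
  have h2 := abs_le.mp (h1.trans h.le)
  unfold ww
  constructor
  · nlinarith [norm_nonneg (c i a + nn i)]
  · nlinarith [sq_nonneg ‖c i a + nn i‖]

lemma vv_bounds (i : Fin 2) {a : E} (ha : a ∈ Metric.ball (0 : E) ρ) :
    2/10 ≤ Cr a (b i a) (c i a) - uu a - ww (nn i) (c i a) ∧
    Cr a (b i a) (c i a) - uu a - ww (nn i) (c i a) ≤ 3/10 := by
  obtain ⟨d1, d2, d3, d4, d5, d6⟩ := label_dists hρ hF i ha
  obtain ⟨u1, u2⟩ := uu_bounds hρ hF ha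
  obtain ⟨w1, w2⟩ := ww_bounds hρ hF i ha
  have i1 : ‖a - b i a‖⁻¹ ≤ (99/100 : ℝ)⁻¹ := inv_anti₀ (by norm_num) d1.le
  have i2 : ‖a - c i a‖⁻¹ ≤ (99/100 : ℝ)⁻¹ := inv_anti₀ (by norm_num) d2.le
  have i3 : ‖b i a - c i a‖⁻¹ ≤ (199/100 : ℝ)⁻¹ := inv_anti₀ (by norm_num) d3.le
  have j1 : (101/100 : ℝ)⁻¹ ≤ ‖a - b i a‖⁻¹ := inv_anti₀ (by linarith) d4.le
  have j2 : (101/100 : ℝ)⁻¹ ≤ ‖a - c i a‖⁻¹ := inv_anti₀ (by linarith) d5.le
  have j3 : (201/100 : ℝ)⁻¹ ≤ ‖b i a - c i a‖⁻¹ := inv_anti₀ (by linarith) d6.le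
  unfold Cr
  constructor
  · norm_num at j1 j2 j3 ⊢; linarith
  · norm_num at i1 i2 i3 ⊢; linarith

lemma ff_nonneg (k : K) {a : E} (ha : a ∈ Metric.ball (0 : E) ρ) : 0 ≤ ff b c k a := by
  rcases k with _ | ⟨i, s⟩
  · have := uu_bounds hρ hF ha; simp only [ff]; linarith
  · cases s
    · have := ww_bounds hρ hF i ha; simp only [ff]; linarith
    · have := vv_bounds hρ hF i ha; simp only [ff]; linarith

lemma ff_some_le (p : Fin 2 × Bool) {a : E} (ha : a ∈ Metric.ball (0 : E) ρ) :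
    ff b c (some p) a ≤ 3/10 := by
  rcases p with ⟨i, s⟩
  cases s
  · have := ww_bounds hρ hF i ha; simp only [ff]; linarith
  · have := vv_bounds hρ hF i ha; simp only [ff]; linarith

lemma ff_le (k : K) {a : E} (ha : a ∈ Metric.ball (0 : E) ρ) : ff b c k a ≤ 2 := by
  rcases k with _ | p
  · exact (uu_bounds hρ hF ha).2
  · have := ff_some_le hρ hF p ha; linarith

/-- Two points in the same cluster: strict inequality. -/
lemma same_lt (k l : K) {a₁ a₂ a₃ : E} (h1 : a₁ ∈ Metric.ball (0 : E) ρ)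
    (h2 : a₂ ∈ Metric.ball (0 : E) ρ) (h3 : a₃ ∈ Metric.ball (0 : E) ρ) :
    ENNReal.ofReal (ff b c k a₁ + ff b c k a₂ + ff b c l a₃)
      < coulomb (FF b c k a₁) (FF b c k a₂) (FF b c l a₃) := by
  apply lt_coulomb
  intro n1 n2 n3
  have d := dist_upper hρ hF k k h1 h2
  rw [sub_self, norm_zero, zero_add] at d
  have hp : 0 < ‖FF b c k a₁ - FF b c k a₂‖ := norm_pos_iff.mpr (sub_ne_zero.mpr n1)
  have hi : (1/100 : ℝ)⁻¹ ≤ ‖FF b c k a₁ - FF b c k a₂‖⁻¹ := inv_anti₀ hp d.le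
  have b1 := ff_le hρ hF k h1
  have b2 := ff_le hρ hF k h2
  have b3 := ff_le hρ hF l h3
  unfold Cr
  have p2 : 0 ≤ ‖FF b c k a₁ - FF b c l a₃‖⁻¹ := by positivity
  have p3 : 0 ≤ ‖FF b c k a₂ - FF b c l a₃‖⁻¹ := by positivity
  norm_num at hi
  linarith

/-- Three outer points: strict inequality. -/
lemma outer_lt (p q r : Fin 2 × Bool) {a₁ a₂ a₃ : E} (h1 : a₁ ∈ Metric.ball (0 : E) ρ)
    (h2 : a₂ ∈ Metric.ball (0 : E) ρ) (h3 : a₃ ∈ Metric.ball (0 : E) ρ) :
    ENNReal.ofReal (ff b c (some p) a₁ + ff b c (some q) a₂ + ff b c (some r) a₃)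
      < coulomb (FF b c (some p) a₁) (FF b c (some q) a₂) (FF b c (some r) a₃) := by
  apply lt_coulomb
  intro n1 n2 n3
  have key : ∀ (k l : K) (x y : E), x ∈ Metric.ball (0 : E) ρ → y ∈ Metric.ball (0 : E) ρ →
      FF b c k x ≠ FF b c l y → (201/100 : ℝ)⁻¹ ≤ ‖FF b c k x - FF b c l y‖⁻¹ := by
    intro k l x y hx hy hne
    have d := dist_upper hρ hF k l hx hy
    have hP : ‖PP k - PP l‖ ≤ 2 := by
      have := norm_sub_le (PP k) (PP l)
      have := PP_le k
      have := PP_le l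
      linarith
    exact inv_anti₀ (norm_pos_iff.mpr (sub_ne_zero.mpr hne)) (by linarith)
  have i1 := key _ _ _ _ h1 h2 n1
  have i2 := key _ _ _ _ h1 h3 n2
  have i3 := key _ _ _ _ h2 h3 n3
  have b1 := ff_some_le hρ hF p h1
  have b2 := ff_some_le hρ hF q h2
  have b3 := ff_some_le hρ hF r h3
  unfold Cr
  norm_num at i1 i2 i3
  linarith

/-- Centre and two perpendicular outer points: strict inequality. -/
lemma perp_lt {i j : Fin 2} (hij : i ≠ j) (s t : Bool) {a₁ a₂ a₃ : E}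
    (h1 : a₁ ∈ Metric.ball (0 : E) ρ)
    (h2 : a₂ ∈ Metric.ball (0 : E) ρ) (h3 : a₃ ∈ Metric.ball (0 : E) ρ) :
    ENNReal.ofReal (ff b c none a₁ + ff b c (some (i, s)) a₂ + ff b c (some (j, t)) a₃)
      < coulomb (FF b c none a₁) (FF b c (some (i, s)) a₂) (FF b c (some (j, t)) a₃) := by
  apply lt_coulomb
  intro n1 n2 n3
  have P1 : ∀ p : Fin 2 × Bool, ‖PP none - PP (some p)‖ = 1 := by
    intro p
    have : PP none = 0 := rfl
    rw [this, zero_sub, norm_neg, PP_some]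
  have d1 := dist_upper hρ hF none (some (i, s)) h1 h2
  have d2 := dist_upper hρ hF none (some (j, t)) h1 h3
  have d3 := dist_upper hρ hF (some (i, s)) (some (j, t)) h2 h3
  rw [P1] at d1 d2
  have hP : ‖PP (some (i, s)) - PP (some (j, t))‖ ≤ 1415/1000 := by
    have := PP_perp hij s t
    nlinarith [norm_nonneg (PP (some (i, s)) - PP (some (j, t)))]
  have i1 : (101/100 : ℝ)⁻¹ ≤ ‖FF b c none a₁ - FF b c (some (i, s)) a₂‖⁻¹ :=
    inv_anti₀ (norm_pos_iff.mpr (sub_ne_zero.mpr n1)) (by linarith)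
  have i2 : (101/100 : ℝ)⁻¹ ≤ ‖FF b c none a₁ - FF b c (some (j, t)) a₃‖⁻¹ :=
    inv_anti₀ (norm_pos_iff.mpr (sub_ne_zero.mpr n2)) (by linarith)
  have i3 : (1425/1000 : ℝ)⁻¹ ≤ ‖FF b c (some (i, s)) a₂ - FF b c (some (j, t)) a₃‖⁻¹ :=
    inv_anti₀ (norm_pos_iff.mpr (sub_ne_zero.mpr n3)) (by linarith)
  have b1 := ff_le hρ hF none h1
  have b2 := ff_some_le hρ hF (i, s) h2
  have b3 := ff_some_le hρ hF (j, t) h3
  unfold Cr
  norm_num at i1 i2 i3
  linarith

/-- The label inequality with its gap. -/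
lemma label_ineq (i : Fin 2) {a₁ a₂ a₃ : E}
    (h2 : a₂ ∈ Metric.ball (0 : E) ρ)
    (n1 : a₁ ≠ b i a₂) (n2 : a₁ ≠ c i a₃) (n3 : c i a₃ ≠ b i a₂) :
    ff b c none a₁ + ff b c (some (i, true)) a₂ + ff b c (some (i, false)) a₃
      + (‖a₁ - a₂‖ ^ 2 + ‖c i a₃ - c i a₂‖ ^ 2) ≤ Cr a₁ (b i a₂) (c i a₃) := by
  obtain ⟨d1, d2, d3, d4, d5, d6⟩ := label_dists hρ hF i h2
  have g := gap (nn i) a₂ (b i a₂) (c i a₂) a₁ (c i a₃) (by linarith) (by linarith)
    (by rw [norm_sub_rev]; linarith) ((hF i).e1 a₂ h2) ((hF i).e2 a₂ h2) n1 n2 n3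
  simpa only [ff] using g

lemma label_le (i : Fin 2) {a₁ a₂ a₃ : E} (h2 : a₂ ∈ Metric.ball (0 : E) ρ) :
    ENNReal.ofReal (ff b c none a₁ + ff b c (some (i, true)) a₂ + ff b c (some (i, false)) a₃)
      ≤ coulomb (FF b c none a₁) (FF b c (some (i, true)) a₂) (FF b c (some (i, false)) a₃) := by
  apply le_coulomb
  intro n1 n2 n3
  simp only [FF, id] at n1 n2 n3
  have := label_ineq hρ hF i h2 n1 n2 (Ne.symm n3)
  simp only [FF, id]
  nlinarith [sq_nonneg ‖a₁ - a₂‖, sq_nonneg ‖c i a₃ - c i a₂‖]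

lemma label_eq (i : Fin 2) {a₁ a₂ a₃ : E}
    (h2 : a₂ ∈ Metric.ball (0 : E) ρ) (h3 : a₃ ∈ Metric.ball (0 : E) ρ)
    (he : ENNReal.ofReal (ff b c none a₁ + ff b c (some (i, true)) a₂ + ff b c (some (i, false)) a₃)
      = coulomb (FF b c none a₁) (FF b c (some (i, true)) a₂) (FF b c (some (i, false)) a₃)) :
    a₂ = a₁ ∧ a₃ = a₁ := by
  by_cases h0 : a₁ = b i a₂ ∨ a₁ = c i a₃ ∨ b i a₂ = c i a₃
  · have ht : coulomb (FF b c none a₁) (FF b c (some (i, true)) a₂) (FF b c (some (i, false)) a₃)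
        = ⊤ := coulomb_top h0
    rw [ht] at he
    exact absurd he ENNReal.ofReal_ne_top
  · push Not at h0
    obtain ⟨n1, n2, n3⟩ := h0
    have g := label_ineq hρ hF i h2 n1 n2 (Ne.symm n3)
    have hc : coulomb (FF b c none a₁) (FF b c (some (i, true)) a₂) (FF b c (some (i, false)) a₃)
        = ENNReal.ofReal (Cr a₁ (b i a₂) (c i a₃)) := coulomb_eq n1 n2 n3
    rw [hc] at he
    have hpos : 0 < Cr a₁ (b i a₂) (c i a₃) := by
      unfold Cr
      have := norm_pos_iff.mpr (sub_ne_zero.mpr n1)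
      positivity
    have he' : Cr a₁ (b i a₂) (c i a₃)
        ≤ ff b c none a₁ + ff b c (some (i, true)) a₂ + ff b c (some (i, false)) a₃ := by
      by_contra hlt
      push Not at hlt
      have := (ENNReal.ofReal_lt_ofReal_iff hpos).mpr hlt
      exact absurd he this.ne
    have z1 : ‖a₁ - a₂‖ ^ 2 = 0 := by
      nlinarith [sq_nonneg ‖a₁ - a₂‖, sq_nonneg ‖c i a₃ - c i a₂‖]
    have z2 : ‖c i a₃ - c i a₂‖ ^ 2 = 0 := by
      nlinarith [sq_nonneg ‖a₁ - a₂‖, sq_nonneg ‖c i a₃ - c i a₂‖]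
    have w1 : a₁ = a₂ := by
      have := pow_eq_zero_iff (two_ne_zero) |>.mp z1
      exact sub_eq_zero.mp (norm_eq_zero.mp this)
    have w2 : c i a₃ = c i a₂ := by
      have := pow_eq_zero_iff (two_ne_zero) |>.mp z2
      exact sub_eq_zero.mp (norm_eq_zero.mp this)
    have w3 : a₃ = a₂ := (hF i).ci h3 h2 w2
    exact ⟨w1.symm, w3.trans w1.symm⟩

/-- First index the centre: the full trichotomy. -/
lemma first (k l : K) {a₁ a₂ a₃ : E} (h1 : a₁ ∈ Metric.ball (0 : E) ρ)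
    (h2 : a₂ ∈ Metric.ball (0 : E) ρ) (h3 : a₃ ∈ Metric.ball (0 : E) ρ) :
    ENNReal.ofReal (ff b c none a₁ + ff b c k a₂ + ff b c l a₃)
      ≤ coulomb (FF b c none a₁) (FF b c k a₂) (FF b c l a₃) ∧
    (ENNReal.ofReal (ff b c none a₁ + ff b c k a₂ + ff b c l a₃)
      = coulomb (FF b c none a₁) (FF b c k a₂) (FF b c l a₃) →
      ∃ p, k = some p ∧ a₂ = a₁) := by
  rcases k with _ | ⟨i, s⟩
  · have := same_lt hρ hF none l h1 h2 h3
    exact ⟨this.le, fun h => absurd h this.ne⟩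
  rcases l with _ | ⟨j, t⟩
  · have := same_lt hρ hF none (some (i, s)) h1 h3 h2
    rw [coulomb_swap23, show ff b c none a₁ + ff b c none a₃ + ff b c (some (i, s)) a₂
      = ff b c none a₁ + ff b c (some (i, s)) a₂ + ff b c none a₃ by ring] at this
    exact ⟨this.le, fun h => absurd h this.ne⟩
  by_cases hij : i = j
  · subst hij
    cases s <;> cases t
    · have := same_lt hρ hF (some (i, false)) none h2 h3 h1
      rw [coulomb_swap23, coulomb_swap12,
        show ff b c (some (i, false)) a₂ + ff b c (some (i, false)) a₃ + ff b c none a₁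
        = ff b c none a₁ + ff b c (some (i, false)) a₂ + ff b c (some (i, false)) a₃ by ring] at this
      exact ⟨this.le, fun h => absurd h this.ne⟩
    · rw [coulomb_swap23, show ff b c none a₁ + ff b c (some (i, false)) a₂
        + ff b c (some (i, true)) a₃ = ff b c none a₁ + ff b c (some (i, true)) a₃
        + ff b c (some (i, false)) a₂ by ring]
      refine ⟨label_le hρ hF i h3, fun h => ⟨_, rfl, ?_⟩⟩
      exact (label_eq hρ hF i h3 h2 h).2
    · refine ⟨label_le hρ hF i h2, fun h => ⟨_, rfl, ?_⟩⟩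
      exact (label_eq hρ hF i h2 h3 h).1
    · have := same_lt hρ hF (some (i, true)) none h2 h3 h1
      rw [coulomb_swap23, coulomb_swap12,
        show ff b c (some (i, true)) a₂ + ff b c (some (i, true)) a₃ + ff b c none a₁
        = ff b c none a₁ + ff b c (some (i, true)) a₂ + ff b c (some (i, true)) a₃ by ring] at this
      exact ⟨this.le, fun h => absurd h this.ne⟩
  · have := perp_lt hρ hF hij s t h1 h2 h3
    exact ⟨this.le, fun h => absurd h this.ne⟩

/-- Dual feasibility. -/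
lemma dual_le (k₁ k₂ k₃ : K) {a₁ a₂ a₃ : E} (h1 : a₁ ∈ Metric.ball (0 : E) ρ)
    (h2 : a₂ ∈ Metric.ball (0 : E) ρ) (h3 : a₃ ∈ Metric.ball (0 : E) ρ) :
    ENNReal.ofReal (ff b c k₁ a₁ + ff b c k₂ a₂ + ff b c k₃ a₃)
      ≤ coulomb (FF b c k₁ a₁) (FF b c k₂ a₂) (FF b c k₃ a₃) := by
  rcases k₁ with _ | p
  · exact (first hρ hF k₂ k₃ h1 h2 h3).1
  rcases k₂ with _ | q
  · have := (first hρ hF (some p) k₃ h2 h1 h3).1
    rw [coulomb_swap12, show ff b c none a₂ + ff b c (some p) a₁ + ff b c k₃ a₃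
      = ff b c (some p) a₁ + ff b c none a₂ + ff b c k₃ a₃ by ring] at this
    exact this
  rcases k₃ with _ | r
  · have := (first hρ hF (some p) (some q) h3 h1 h2).1
    rw [coulomb_swap12, coulomb_swap23, show ff b c none a₃ + ff b c (some p) a₁
      + ff b c (some q) a₂ = ff b c (some p) a₁ + ff b c (some q) a₂ + ff b c none a₃ by ring]
      at this
    exact this
  exact (outer_lt hρ hF p q r h1 h2 h3).le

/-- Clusters are disjoint. -/
lemma cluster_disj {k l : K} (hkl : k ≠ l) {a a' : E} (ha : a ∈ Metric.ball (0 : E) ρ)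
    (ha' : a' ∈ Metric.ball (0 : E) ρ) : FF b c k a ≠ FF b c l a' := by
  intro h
  have d := dist_lower hρ hF k l ha ha'
  rw [h, sub_self, norm_zero] at d
  have hP : 1 ≤ ‖PP k - PP l‖ := by
    rcases k with _ | ⟨i, s⟩
    · rcases l with _ | q
      · exact absurd rfl hkl
      · have : PP none = 0 := rfl
        rw [this, zero_sub, norm_neg, PP_some]
    · rcases l with _ | ⟨j, t⟩
      · have : PP none = 0 := rfl
        rw [this, sub_zero, PP_some]
      · by_cases hij : i = j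
        · subst hij
          cases s <;> cases t
          · exact absurd rfl hkl
          · rw [norm_sub_rev, PP_opp]; norm_num
          · rw [PP_opp]; norm_num
          · exact absurd rfl hkl
        · have := PP_perp hij s t
          nlinarith [norm_nonneg (PP (some (i, s)) - PP (some (j, t)))]
  linarith

end

end Vale.Agent.P121
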