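import Vale.Agent.P121.Kappa

/-! Solving the two force equations near the base triple `(0, n, -n)`. -/

namespace Vale.Agent.P121

open Real Filter Topology InnerProductSpace
open scoped RealInnerProductSpace

/-- The map whose local inverse solves the force equations. -/
noncomputable def GG (n : E) (z : E × E) : E × E :=
  (-(1/100 : ℝ) • (kap z.1 + kap z.2),
    (100 : ℝ) • (z.2 + n) - (5/4 : ℝ) • n - kap z.1 - (2 : ℝ) • kap z.2 - kap (z.2 - z.1))

noncomputable def GD (n : E) : (E × E) →L[ℝ] (E × E) :=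
  (-(1/100 : ℝ) • ((kapD n).comp (ContinuousLinearMap.fst ℝ E E)
      + (kapD (-n)).comp (ContinuousLinearMap.snd ℝ E E))).prod
  ((100 : ℝ) • ContinuousLinearMap.snd ℝ E E
    - (kapD n).comp (ContinuousLinearMap.fst ℝ E E)
    - (2 : ℝ) • (kapD (-n)).comp (ContinuousLinearMap.snd ℝ E E)
    - (kapD (-n - n)).comp (ContinuousLinearMap.snd ℝ E E - ContinuousLinearMap.fst ℝ E E))

/-- The operator `h - 3 ⟨n,h⟩ n`. -/
noncomputable def SS (n h : E) : E := h - (3 * ⟪n, h⟫) • n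

lemma SS_add (n h k : E) : SS n (h + k) = SS n h + SS n k := by
  unfold SS; rw [inner_add_right]; module

lemma SS_smul (n : E) (c : ℝ) (h : E) : SS n (c • h) = c • SS n h := by
  unfold SS; rw [inner_smul_right]; module

lemma kapD_n (n h : E) (hn : ‖n‖ = 1) : kapD n h = SS n h := by
  rw [kapD_apply, hn]; unfold SS; simp

lemma kapD_neg (n h : E) (hn : ‖n‖ = 1) : kapD (-n) h = SS n h := by
  rw [kapD_apply, norm_neg, hn, inner_neg_left]; unfold SS; simp

lemma kapD_two (n h : E) (hn : ‖n‖ = 1) : kapD (-n - n) h = (1/8 : ℝ) • SS n h := by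
  have e : -n - n = (-2 : ℝ) • n := by module
  rw [kapD_apply, e, norm_smul, hn, inner_smul_left]
  unfold SS
  simp only [Real.norm_eq_abs, conj_trivial]
  norm_num
  module

lemma SS_inner (n h : E) (hn : ‖n‖ = 1) : ⟪n, SS n h⟫ = -2 * ⟪n, h⟫ := by
  unfold SS
  rw [inner_sub_right, inner_smul_right, real_inner_self_eq_norm_sq, hn]; ring

lemma SS_SS (n h : E) (hn : ‖n‖ = 1) : SS n (SS n h) = (2 : ℝ) • h - SS n h := by
  conv_lhs => unfold SS
  rw [show (h - (3 * ⟪n, h⟫) • n) = SS n h from rfl, SS_inner n h hn]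
  unfold SS; module

/-- Eigenvalues of `SS n` are `1` and `-2`. -/
lemma SS_eig (n h : E) (hn : ‖n‖ = 1) (t : ℝ) (h1 : t ≠ 1) (h2 : t ≠ -2)
    (h0 : SS n h = t • h) : h = 0 := by
  have hi : ⟪n, h⟫ = 0 := by
    have := congrArg (fun v => ⟪n, v⟫) h0
    simp only [SS_inner n h hn, inner_smul_right] at this
    have h3 : (t + 2) * ⟪n, h⟫ = 0 := by linarith
    rcases mul_eq_zero.mp h3 with h4 | h4
    · exact absurd (by linarith) h2
    · exact h4
  unfold SS at h0
  rw [hi] at h0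
  simp only [mul_zero, zero_smul, sub_zero] at h0
  have h5 : (1 - t) • h = 0 := by rw [sub_smul, one_smul, ← h0, sub_self]
  rcases smul_eq_zero.mp h5 with h6 | h6
  · exact absurd (by linarith) h1
  · exact h6

lemma GD_apply (n : E) (hn : ‖n‖ = 1) (z : E × E) :
    GD n z = (-(1/100 : ℝ) • (SS n z.1 + SS n z.2),
      (100 : ℝ) • z.2 - SS n z.1 - (2 : ℝ) • SS n z.2 - (1/8 : ℝ) • SS n (z.2 - z.1)) := by
  unfold GD
  simp only [ContinuousLinearMap.prod_apply]
  ext1
  · simp only [smul_apply, add_apply, ContinuousLinearMap.comp_apply,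
      ContinuousLinearMap.coe_fst', ContinuousLinearMap.coe_snd', kapD_n n _ hn, kapD_neg n _ hn]
  · simp only [sub_apply, smul_apply, ContinuousLinearMap.comp_apply,
      ContinuousLinearMap.coe_fst', ContinuousLinearMap.coe_snd', kapD_n n _ hn, kapD_neg n _ hn,
      kapD_two n _ hn]

lemma SS_sub (n h k : E) : SS n (h - k) = SS n h - SS n k := by
  unfold SS; rw [inner_sub_right]; module

lemma SS_neg (n h : E) : SS n (-h) = - SS n h := by
  unfold SS; rw [inner_neg_right]; module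

/-- Consequences of `GD n z = (α, 0)`. -/
lemma GD_eqs (n : E) (hn : ‖n‖ = 1) (z : E × E) (α : E) (h : GD n z = (α, 0)) :
    SS n z.1 + SS n z.2 = (-100 : ℝ) • α ∧
    (100 : ℝ) • z.2 - (5/4 : ℝ) • SS n z.2 + (175/2 : ℝ) • α = 0 := by
  rw [GD_apply n hn, Prod.mk.injEq] at h
  obtain ⟨h1, h2⟩ := h
  have h3 : SS n z.1 + SS n z.2 = (-100 : ℝ) • α := by
    rw [← h1, smul_smul]; norm_num
  refine ⟨h3, ?_⟩
  rw [SS_sub] at h2
  have h4 : SS n z.1 = (-100 : ℝ) • α - SS n z.2 := by rw [← h3]; abel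
  rw [h4] at h2
  rw [← h2]
  module

lemma GD_inj (n : E) (hn : ‖n‖ = 1) : Function.Injective (GD n) := by
  rw [injective_iff_map_eq_zero]
  intro z hz
  obtain ⟨h1, h2⟩ := GD_eqs n hn z 0 (by rw [hz]; rfl)
  simp only [smul_zero, add_zero] at h1 h2
  have h3 : z.2 = 0 := by
    apply SS_eig n z.2 hn 80 (by norm_num) (by norm_num)
    have : SS n z.2 = (80 : ℝ) • z.2 - (4/5 : ℝ) • ((100 : ℝ) • z.2 - (5/4 : ℝ) • SS n z.2) := by
      module
    rw [this, h2]; simp
  have h4 : z.1 = 0 := by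
    apply SS_eig n z.1 hn 0 (by norm_num) (by norm_num)
    rw [h3] at h1
    have : SS n (0 : E) = 0 := by unfold SS; simp
    rw [this, add_zero] at h1
    rw [h1]; simp
  exact Prod.ext h4 h3

noncomputable def GE (n : E) (hn : ‖n‖ = 1) : (E × E) ≃L[ℝ] (E × E) :=
  (LinearEquiv.ofInjectiveEndo (GD n).toLinearMap (GD_inj n hn)).toContinuousLinearEquiv

lemma GE_coe (n : E) (hn : ‖n‖ = 1) : ((GE n hn : (E × E) ≃L[ℝ] (E × E)) : (E × E) →L[ℝ] (E × E))
    = GD n :=
  ContinuousLinearMap.ext fun _ => rfl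

lemma ne_zero_of_norm_one {n : E} (hn : ‖n‖ = 1) : n ≠ 0 := by
  intro h; rw [h, norm_zero] at hn; exact zero_ne_one hn

lemma two_ne {n : E} (hn : ‖n‖ = 1) : -n - n ≠ 0 := by
  intro h
  have e : -n - n = (-2 : ℝ) • n := by module
  rw [e] at h
  rcases smul_eq_zero.mp h with h1 | h1
  · norm_num at h1
  · exact ne_zero_of_norm_one hn h1

lemma GG_strict (n : E) (hn : ‖n‖ = 1) : HasStrictFDerivAt (GG n) (GD n) (n, -n) := by
  have hf : HasStrictFDerivAt (fun z : E × E => z.1) (ContinuousLinearMap.fst ℝ E E) (n, -n) :=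
    hasStrictFDerivAt_fst
  have hs : HasStrictFDerivAt (fun z : E × E => z.2) (ContinuousLinearMap.snd ℝ E E) (n, -n) :=
    hasStrictFDerivAt_snd
  have k1 : HasStrictFDerivAt (fun z : E × E => kap z.1)
      ((kapD n).comp (ContinuousLinearMap.fst ℝ E E)) (n, -n) :=
    HasStrictFDerivAt.comp (n, -n) (hasStrictFDerivAt_kap n (ne_zero_of_norm_one hn)) hf
  have k2 : HasStrictFDerivAt (fun z : E × E => kap z.2)
      ((kapD (-n)).comp (ContinuousLinearMap.snd ℝ E E)) (n, -n) :=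
    HasStrictFDerivAt.comp (n, -n)
      (hasStrictFDerivAt_kap (-n) (neg_ne_zero.mpr (ne_zero_of_norm_one hn))) hs
  have k3 : HasStrictFDerivAt (fun z : E × E => kap (z.2 - z.1))
      ((kapD (-n - n)).comp (ContinuousLinearMap.snd ℝ E E - ContinuousLinearMap.fst ℝ E E))
      (n, -n) :=
    HasStrictFDerivAt.comp (n, -n) (hasStrictFDerivAt_kap (-n - n) (two_ne hn)) (hs.sub hf)
  have a1 : HasStrictFDerivAt (fun z : E × E => -(1/100 : ℝ) • (kap z.1 + kap z.2))
      (-(1/100 : ℝ) • ((kapD n).comp (ContinuousLinearMap.fst ℝ E E)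
      + (kapD (-n)).comp (ContinuousLinearMap.snd ℝ E E))) (n, -n) :=
    (k1.add k2).const_smul (-(1/100 : ℝ))
  have a2 : HasStrictFDerivAt (fun z : E × E => (100 : ℝ) • (z.2 + n) - (5/4 : ℝ) • n - kap z.1
      - (2 : ℝ) • kap z.2 - kap (z.2 - z.1))
      ((100 : ℝ) • ContinuousLinearMap.snd ℝ E E
    - (kapD n).comp (ContinuousLinearMap.fst ℝ E E)
    - (2 : ℝ) • (kapD (-n)).comp (ContinuousLinearMap.snd ℝ E E)
    - (kapD (-n - n)).comp (ContinuousLinearMap.snd ℝ E E - ContinuousLinearMap.fst ℝ E E))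
      (n, -n) :=
    (((((hs.add_const n).const_smul (100 : ℝ)).sub_const _).sub k1).sub
      (k2.const_smul (2 : ℝ))).sub k3
  exact a1.prodMk a2

lemma GG_contDiff (n : E) (hn : ‖n‖ = 1) : ContDiffAt ℝ 1 (GG n) (n, -n) := by
  have k1 : ContDiffAt ℝ 1 (fun z : E × E => kap z.1) (n, -n) :=
    ContDiffAt.comp (g := kap) (n, -n) (contDiffAt_kap n (ne_zero_of_norm_one hn)) contDiffAt_fst
  have k2 : ContDiffAt ℝ 1 (fun z : E × E => kap z.2) (n, -n) :=
    ContDiffAt.comp (g := kap) (n, -n)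
      (contDiffAt_kap (-n) (neg_ne_zero.mpr (ne_zero_of_norm_one hn))) contDiffAt_snd
  have k3 : ContDiffAt ℝ 1 (fun z : E × E => kap (z.2 - z.1)) (n, -n) :=
    ContDiffAt.comp (g := kap) (n, -n) (contDiffAt_kap (-n - n) (two_ne hn))
      (contDiffAt_snd.sub contDiffAt_fst)
  have a1 : ContDiffAt ℝ 1 (fun z : E × E => -(1/100 : ℝ) • (kap z.1 + kap z.2)) (n, -n) :=
    (k1.add k2).const_smul _
  have a2 : ContDiffAt ℝ 1 (fun z : E × E => (100 : ℝ) • (z.2 + n) - (5/4 : ℝ) • n - kap z.1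
      - (2 : ℝ) • kap z.2 - kap (z.2 - z.1)) (n, -n) :=
    (((((contDiffAt_snd.add contDiffAt_const).const_smul (100 : ℝ)).sub contDiffAt_const).sub
      k1).sub (k2.const_smul (2 : ℝ))).sub k3
  exact a1.prodMk a2

lemma kap_n (n : E) (hn : ‖n‖ = 1) : kap n = n := by unfold kap; rw [hn]; simp

lemma kap_neg (x : E) : kap (-x) = - kap x := by unfold kap; rw [norm_neg, smul_neg]

lemma kap_two (n : E) (hn : ‖n‖ = 1) : kap (-n - n) = -(1/4 : ℝ) • n := by
  have e : -n - n = (-2 : ℝ) • n := by module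
  unfold kap
  rw [e, norm_smul, hn, smul_smul]
  norm_num

lemma GG_base (n : E) (hn : ‖n‖ = 1) : GG n (n, -n) = (0, 0) := by
  unfold GG
  simp only [kap_neg, kap_n n hn]
  rw [kap_two n hn]
  ext1
  · simp
  · simp only
    module

/-- Local solution of the force equations. -/
theorem exists_solution (n : E) (hn : ‖n‖ = 1) :
    ∃ b c : E → E, ContDiffAt ℝ 1 b 0 ∧ ContDiffAt ℝ 1 c 0 ∧ b 0 = n ∧ c 0 = -n ∧
      (fderiv ℝ b 0).det ≠ 0 ∧ (fderiv ℝ c 0).det ≠ 0 ∧
      ∀ᶠ a in 𝓝 (0 : E),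
        kap (b a - a) + kap (c a - a) = -(100 : ℝ) • a ∧
        kap (a - c a) + kap (b a - c a) = (5/4 : ℝ) • n - (100 : ℝ) • (c a + n) := by
  have hS := GG_strict n hn
  rw [← GE_coe n hn] at hS
  have hC := GG_contDiff n hn
  have hb := GG_base n hn
  set g := hS.localInverse (GG n) (GE n hn) (n, -n) with hg
  have g0 : g (0, 0) = (n, -n) := by
    rw [← hb]; exact hS.localInverse_apply_image
  have gD : HasStrictFDerivAt g ((GE n hn).symm : (E × E) →L[ℝ] (E × E)) (0, 0) := by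
    have := hS.to_localInverse
    rwa [hb] at this
  have gC : ContDiffAt ℝ 1 g (0, 0) := by
    have := hC.to_localInverse hS.hasFDerivAt one_ne_zero
    rwa [hb] at this
  have gR : ∀ᶠ y in 𝓝 ((0 : E), (0 : E)), GG n (g y) = y := by
    have := hS.eventually_right_inverse
    rwa [hb] at this
  let ι : E → E × E := fun a => (a, 0)
  have ιC : ContDiffAt ℝ 1 ι 0 := contDiffAt_id.prodMk contDiffAt_const
  have ιD : HasStrictFDerivAt ι (ContinuousLinearMap.inl ℝ E E) 0 := by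
    exact (ContinuousLinearMap.inl ℝ E E).hasStrictFDerivAt
  have ι0 : ι 0 = (0, 0) := rfl
  let X : E → E := fun a => (g (ι a)).1
  let Y : E → E := fun a => (g (ι a)).2
  have gιC : ContDiffAt ℝ 1 (fun a => g (ι a)) 0 := by
    apply ContDiffAt.comp
    · rw [ι0]; exact gC
    · exact ιC
  have gιD : HasStrictFDerivAt (fun a => g (ι a))
      (((GE n hn).symm : (E × E) →L[ℝ] (E × E)).comp (ContinuousLinearMap.inl ℝ E E)) 0 := by
    apply HasStrictFDerivAt.comp
    · rw [ι0]; exact gD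
    · exact ιD
  let W : E →L[ℝ] E × E :=
    ((GE n hn).symm : (E × E) →L[ℝ] (E × E)).comp (ContinuousLinearMap.inl ℝ E E)
  have hW : ∀ α, GD n (W α) = (α, 0) := by
    intro α
    rw [← GE_coe n hn]
    simp [W]
  have XD : HasStrictFDerivAt X ((ContinuousLinearMap.fst ℝ E E).comp W) 0 :=
    HasStrictFDerivAt.comp 0 (hasStrictFDerivAt_fst (p := g (ι 0))) gιD
  have YD : HasStrictFDerivAt Y ((ContinuousLinearMap.snd ℝ E E).comp W) 0 :=
    HasStrictFDerivAt.comp 0 (hasStrictFDerivAt_snd (p := g (ι 0))) gιD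
  have XC : ContDiffAt ℝ 1 X 0 := gιC.fst
  have YC : ContDiffAt ℝ 1 Y 0 := gιC.snd
  have detne : ∀ (T : E →L[ℝ] E), (∀ α, T α = 0 → α = 0) → T.det ≠ 0 := by
    intro T hT
    have : LinearMap.ker (T : E →ₗ[ℝ] E) = ⊥ := by
      rw [LinearMap.ker_eq_bot']
      exact hT
    have h2 := (LinearMap.isUnit_iff_ker_eq_bot (T : E →ₗ[ℝ] E)).mpr this
    have h3 := LinearMap.isUnit_det (T : E →ₗ[ℝ] E) h2
    exact h3.ne_zero
  refine ⟨fun a => a + X a, fun a => a + Y a, contDiffAt_id.add XC, contDiffAt_id.add YC,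
    ?_, ?_, ?_, ?_, ?_⟩
  · show (0 : E) + (g (0, 0)).1 = n
    rw [g0]; simp
  · show (0 : E) + (g (0, 0)).2 = -n
    rw [g0]; simp
  · have hd : HasStrictFDerivAt (fun a => a + X a)
        (ContinuousLinearMap.id ℝ E + (ContinuousLinearMap.fst ℝ E E).comp W) 0 :=
      (hasStrictFDerivAt_id 0).add XD
    rw [hd.hasFDerivAt.fderiv]
    apply detne
    intro α hα
    simp only [add_apply, ContinuousLinearMap.id_apply,
      ContinuousLinearMap.comp_apply, ContinuousLinearMap.coe_fst'] at hα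
    obtain ⟨e1, e2⟩ := GD_eqs n hn (W α) α (hW α)
    have hx : (W α).1 = -α := by rw [eq_neg_iff_add_eq_zero, add_comm]; exact hα
    rw [hx, SS_neg] at e1
    -- SS Y = SS α - 100 α
    have e3 : SS n (W α).2 = SS n α - (100 : ℝ) • α := by
      have : SS n (W α).2 = (-SS n α + SS n (W α).2) + SS n α := by abel
      rw [this, e1]; module
    -- 100 Y - 5/4 SS Y + 175/2 α = 0; apply SS
    have e4 := congrArg (SS n) e2
    rw [SS_add, SS_sub, SS_smul, SS_smul, SS_smul, e3, SS_sub, SS_smul, SS_SS n α hn] at e4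
    have z0 : SS n (0 : E) = 0 := by unfold SS; simp
    rw [z0] at e4
    apply SS_eig n α hn (20005/2 / (1255/4)) (by norm_num) (by norm_num)
    have e5 : SS n α = (20005/2 / (1255/4) : ℝ) • α + (4/1255 : ℝ) •
      ((100 : ℝ) • (SS n α - (100 : ℝ) • α) - (5/4 : ℝ) • ((2 : ℝ) • α - SS n α - (100 : ℝ) • SS n α)
        + (175/2 : ℝ) • SS n α) := by
      module
    rw [e5, e4]; simp
  · have hd : HasStrictFDerivAt (fun a => a + Y a)
        (ContinuousLinearMap.id ℝ E + (ContinuousLinearMap.snd ℝ E E).comp W) 0 :=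
      (hasStrictFDerivAt_id 0).add YD
    rw [hd.hasFDerivAt.fderiv]
    apply detne
    intro α hα
    simp only [add_apply, ContinuousLinearMap.id_apply,
      ContinuousLinearMap.comp_apply, ContinuousLinearMap.coe_snd'] at hα
    obtain ⟨e1, e2⟩ := GD_eqs n hn (W α) α (hW α)
    have hx : (W α).2 = -α := by rw [eq_neg_iff_add_eq_zero, add_comm]; exact hα
    rw [hx, SS_neg] at e2
    apply SS_eig n α hn 10 (by norm_num) (by norm_num)
    have e5 : SS n α = (10 : ℝ) • α + (4/5 : ℝ) •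
      ((100 : ℝ) • (-α) - (5/4 : ℝ) • (-SS n α) + (175/2 : ℝ) • α) := by
      module
    rw [e5, e2]; simp
  · have : Tendsto ι (𝓝 0) (𝓝 (0, 0)) := by
      have := ιD.continuousAt.tendsto
      rwa [ι0] at this
    filter_upwards [this.eventually gR] with a ha
    have hXa : a + X a - a = (g (ι a)).1 := by simp [X]
    have hYa : a + Y a - a = (g (ι a)).2 := by simp [Y]
    have ha1 : -(1/100 : ℝ) • (kap (g (ι a)).1 + kap (g (ι a)).2) = a := congrArg Prod.fst ha
    have ha2 : (100 : ℝ) • ((g (ι a)).2 + n) - (5/4 : ℝ) • n - kap (g (ι a)).1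
      - (2 : ℝ) • kap (g (ι a)).2 - kap ((g (ι a)).2 - (g (ι a)).1) = 0 := congrArg Prod.snd ha
    constructor
    · rw [hXa, hYa]
      rw [eq_comm]
      calc -(100 : ℝ) • a = -(100 : ℝ) • (-(1/100 : ℝ) • (kap (g (ι a)).1 + kap (g (ι a)).2)) := by
            rw [ha1]
        _ = kap (g (ι a)).1 + kap (g (ι a)).2 := by rw [smul_smul]; norm_num
    · have h1 : a - (a + Y a) = -(g (ι a)).2 := by simp [Y]
      have h2 : a + X a - (a + Y a) = -((g (ι a)).2 - (g (ι a)).1) := by simp [X, Y]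
      rw [h1, h2, kap_neg, kap_neg]
      have h3 : kap ((g (ι a)).2 - (g (ι a)).1) = (100 : ℝ) • ((g (ι a)).2 + n) - (5/4 : ℝ) • n
        - kap (g (ι a)).1 - (2 : ℝ) • kap (g (ι a)).2 := by
        rw [eq_comm, ← sub_eq_zero]; exact ha2
      rw [h3]
      have h4 : (100 : ℝ) • a = -(kap (g (ι a)).1 + kap (g (ι a)).2) := by
        calc (100 : ℝ) • a = (100 : ℝ) • (-(1/100 : ℝ) • (kap (g (ι a)).1 + kap (g (ι a)).2)) := by
              rw [ha1]
          _ = _ := by module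
      have h5 : a + Y a + n = a + ((g (ι a)).2 + n) := by simp only [Y]; abel
      rw [h5, smul_add (100 : ℝ) a, h4]
      module

end Vale.Agent.P121
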