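import Vale.Agent.P121.Defs

/-! The Coulomb field and its derivative. -/

namespace Vale.Agent.P121

open Real Filter Topology InnerProductSpace
open scoped RealInnerProductSpace

/-- The field `x / |x|^3`. -/
noncomputable def kap (x : E) : E := (‖x‖ ^ 3)⁻¹ • x

/-- The key elementary inequality: a global quadratic lower bound for `1/|y|`. -/
lemma inv_norm_ge (x y : E) (hx : x ≠ 0) (hy : y ≠ 0) :
    (‖x‖)⁻¹ - ⟪kap x, y - x⟫ - ‖y - x‖ ^ 2 / (2 * ‖x‖ ^ 3) ≤ (‖y‖)⁻¹ := by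
  have hs : 0 < ‖x‖ := norm_pos_iff.mpr hx
  have ht : 0 < ‖y‖ := norm_pos_iff.mpr hy
  have h1 : ⟪kap x, y - x⟫ = (‖x‖ ^ 3)⁻¹ * (⟪x, y⟫ - ‖x‖ ^ 2) := by
    unfold kap
    rw [real_inner_smul_left, inner_sub_right, real_inner_self_eq_norm_sq]
  have h2 : ‖y - x‖ ^ 2 = ‖y‖ ^ 2 - 2 * ⟪x, y⟫ + ‖x‖ ^ 2 := by
    rw [norm_sub_sq_real, real_inner_comm]
  rw [h1, h2]
  set s := ‖x‖
  set t := ‖y‖
  set p := ⟪x, y⟫
  have key : (t)⁻¹ - (s⁻¹ - (s ^ 3)⁻¹ * (p - s ^ 2) - (t ^ 2 - 2 * p + s ^ 2) / (2 * s ^ 3))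
      = (s - t) ^ 2 * (2 * s + t) / (2 * s ^ 3 * t) := by
    field_simp
    ring
  have : 0 ≤ (s - t) ^ 2 * (2 * s + t) / (2 * s ^ 3 * t) := by positivity
  linarith

/-- Derivative of `kap`. -/
noncomputable def kapD (x : E) : E →L[ℝ] E :=
  (‖x‖ ^ 3)⁻¹ • ContinuousLinearMap.id ℝ E
    - (3 * (‖x‖ ^ 5)⁻¹) • (innerSL ℝ x).smulRight x

lemma kapD_apply (x h : E) :
    kapD x h = (‖x‖ ^ 3)⁻¹ • h - (3 * (‖x‖ ^ 5)⁻¹ * ⟪x, h⟫) • x := by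
  simp [kapD, smul_smul]

lemma hasStrictFDerivAt_kap (x : E) (hx : x ≠ 0) :
    HasStrictFDerivAt kap (kapD x) x := by
  have hs : 0 < ‖x‖ := norm_pos_iff.mpr hx
  have h0 : HasStrictFDerivAt (fun y : E => ‖y‖ ^ 2) (2 • innerSL ℝ x) x :=
    hasStrictFDerivAt_norm_sq x
  have h1 := h0.rpow_const (p := (-(3/2) : ℝ)) (Or.inl (by positivity))
  have h2 := h1.smul (hasStrictFDerivAt_id x)
  have e1 : ((fun y : E => (‖y‖ ^ 2) ^ (-(3/2) : ℝ)) • id) = kap := by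
    funext y
    show (‖y‖ ^ 2) ^ (-(3/2) : ℝ) • y = kap y
    unfold kap
    congr 1
    rw [Real.rpow_neg (by positivity), ← Real.rpow_natCast, ← Real.rpow_mul (norm_nonneg _)]
    congr 1
    rw [show ((2 : ℕ) : ℝ) * (3 / 2) = ((3 : ℕ) : ℝ) by norm_num, Real.rpow_natCast]
  have e2 : (‖x‖ ^ 2) ^ (-(3/2) : ℝ) = (‖x‖ ^ 3)⁻¹ := by
    rw [Real.rpow_neg (by positivity), ← Real.rpow_natCast, ← Real.rpow_mul (norm_nonneg _)]
    congr 1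
    rw [show ((2 : ℕ) : ℝ) * (3 / 2) = ((3 : ℕ) : ℝ) by norm_num, Real.rpow_natCast]
  have e3 : (‖x‖ ^ 2) ^ (-(3/2) - 1 : ℝ) = (‖x‖ ^ 5)⁻¹ := by
    rw [show (-(3/2) - 1 : ℝ) = -(5/2) by norm_num, Real.rpow_neg (by positivity),
      ← Real.rpow_natCast, ← Real.rpow_mul (norm_nonneg _)]
    congr 1
    rw [show ((2 : ℕ) : ℝ) * (5 / 2) = ((5 : ℕ) : ℝ) by norm_num, Real.rpow_natCast]
  rw [e1] at h2
  refine h2.congr_fderiv ?_
  ext1 h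
  simp only [kapD_apply, id_eq, e2, e3]
  simp only [ContinuousLinearMap.add_apply, ContinuousLinearMap.smul_apply,
    ContinuousLinearMap.smulRight_apply, ContinuousLinearMap.id_apply, innerSL_apply_apply,
    nsmul_eq_mul, smul_eq_mul]
  rw [sub_eq_add_neg, ← neg_smul]
  congr 2
  push_cast
  ring

lemma contDiffAt_kap (x : E) (hx : x ≠ 0) : ContDiffAt ℝ 1 kap x := by
  unfold kap
  have h1 : ContDiffAt ℝ 1 (fun y : E => ‖y‖) x := contDiffAt_norm ℝ hx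
  have h2 : ContDiffAt ℝ 1 (fun y : E => (‖y‖ ^ 3)⁻¹) x :=
    (h1.pow 3).inv (by positivity)
  exact h2.smul contDiffAt_id

end Vale.Agent.P121
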