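import Vale.Agent.P121.Implicit

/-! Uniform neighbourhood on which both families are well behaved. -/

namespace Vale.Agent.P121

open Real Filter Topology InnerProductSpace MeasureTheory Set
open scoped RealInnerProductSpace ENNReal

lemma exists_nhds_good (f : E → E) (hf : ContDiffAt ℝ 1 f 0) (hdet : (fderiv ℝ f 0).det ≠ 0) :
    ∃ s ∈ 𝓝 (0 : E), InjOn f s ∧ ∀ a ∈ s, DifferentiableAt ℝ f a ∧ (fderiv ℝ f a).det ≠ 0 := by
  have h1 : ∀ᶠ a in 𝓝 (0 : E), ContDiffAt ℝ 1 f a := hf.eventually (by norm_num)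
  have h2 : ContinuousAt (fun a => (fderiv ℝ f a).det) 0 := by
    have : ContDiffAt ℝ 0 (fderiv ℝ f) 0 := hf.fderiv_right (m := 0) (by norm_num)
    exact ContinuousLinearMap.continuous_det.continuousAt.comp this.continuousAt
  have h3 : ∀ᶠ a in 𝓝 (0 : E), (fderiv ℝ f a).det ≠ 0 := h2.eventually_ne hdet
  have hD : HasFDerivAt f (((fderiv ℝ f 0).toContinuousLinearEquivOfDetNeZero hdet : E ≃L[ℝ] E)
      : E →L[ℝ] E) 0 := by
    rw [ContinuousLinearMap.coe_toContinuousLinearEquivOfDetNeZero]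
    exact (hf.differentiableAt (by norm_num)).hasFDerivAt
  let e := hf.toOpenPartialHomeomorph f hD one_ne_zero
  have h4 : e.source ∈ 𝓝 (0 : E) :=
    e.open_source.mem_nhds (hf.mem_toOpenPartialHomeomorph_source hD one_ne_zero)
  refine ⟨e.source ∩ {a | ContDiffAt ℝ 1 f a ∧ (fderiv ℝ f a).det ≠ 0},
    inter_mem h4 (h1.and h3), ?_, ?_⟩
  · exact (e.injOn).mono inter_subset_left
  · rintro a ⟨_, ha1, ha2⟩
    exact ⟨ha1.differentiableAt (by norm_num), ha2⟩

lemma map_ac (f : E → E) (hm : Measurable f) (s : Set E) (hs : MeasurableSet s)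
    (f' : E → E →L[ℝ] E) (hf' : ∀ x ∈ s, HasFDerivWithinAt f (f' x) s x)
    (hdet : ∀ x ∈ s, (f' x).det ≠ 0) (hinj : InjOn f s) :
    (volume.restrict s).map f ≪ volume := by
  refine Measure.AbsolutelyContinuous.mk fun N hN hN0 => ?_
  rw [Measure.map_apply hm hN, Measure.restrict_apply (hm hN)]
  set t := f ⁻¹' N ∩ s with ht
  have htm : MeasurableSet t := (hm hN).inter hs
  have hts : t ⊆ s := inter_subset_right
  have hD : ∀ x ∈ t, HasFDerivWithinAt f (f' x) t x := fun x hx => (hf' x (hts hx)).mono hts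
  have h1 := lintegral_abs_det_fderiv_eq_addHaar_image volume htm hD (hinj.mono hts)
  have h2 : volume (f '' t) = 0 := by
    refine measure_mono_null ?_ hN0
    rintro _ ⟨x, hx, rfl⟩
    exact hx.1
  rw [h2] at h1
  have h3 := (lintegral_eq_zero_iff' (aemeasurable_ofReal_abs_det_fderivWithin volume htm hD)).mp h1
  rw [Filter.EventuallyEq, ae_restrict_iff' htm] at h3
  have h4 : ∀ᵐ x ∂(volume : Measure E), x ∉ t := by
    filter_upwards [h3] with x hx hxt
    have := hx hxt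
    simp only [Pi.zero_apply, ENNReal.ofReal_eq_zero] at this
    exact hdet x (hts hxt) (abs_eq_zero.mp (le_antisymm this (abs_nonneg _)))
  rw [ae_iff] at h4
  simpa using h4

/-- Everything needed about one family on a ball. -/
structure Fam (n : E) (ρ : ℝ) (b c : E → E) : Prop where
  bm : Measurable b
  cm : Measurable c
  bn : ∀ a ∈ Metric.ball (0 : E) ρ, ‖b a - n‖ < 1/200
  cn : ∀ a ∈ Metric.ball (0 : E) ρ, ‖c a + n‖ < 1/200
  e1 : ∀ a ∈ Metric.ball (0 : E) ρ, kap (b a - a) + kap (c a - a) = -(100 : ℝ) • a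
  e2 : ∀ a ∈ Metric.ball (0 : E) ρ,
    kap (a - c a) + kap (b a - c a) = (5/4 : ℝ) • n - (100 : ℝ) • (c a + n)
  bi : InjOn b (Metric.ball (0 : E) ρ)
  ci : InjOn c (Metric.ball (0 : E) ρ)
  bac : (volume.restrict (Metric.ball (0 : E) ρ)).map b ≪ volume
  cac : (volume.restrict (Metric.ball (0 : E) ρ)).map c ≪ volume

lemma exists_fam (n : E) (hn : ‖n‖ = 1) :
    ∃ ρ₀ > 0, ∀ ρ, 0 < ρ → ρ ≤ ρ₀ → ∃ b c : E → E, Fam n ρ b c := by
  obtain ⟨b, c, hb, hc, hb0, hc0, hbd, hcd, hev⟩ := exists_solution n hn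
  obtain ⟨s, hs, hsi, hsd⟩ := exists_nhds_good b hb hbd
  obtain ⟨t, ht, hti, htd⟩ := exists_nhds_good c hc hcd
  have hbn : ∀ᶠ a in 𝓝 (0 : E), ‖b a - n‖ < 1/200 := by
    have : ContinuousAt (fun a => ‖b a - n‖) 0 := (hb.continuousAt.sub continuousAt_const).norm
    apply this.eventually_lt continuousAt_const
    rw [hb0]; simp
  have hcn : ∀ᶠ a in 𝓝 (0 : E), ‖c a + n‖ < 1/200 := by
    have : ContinuousAt (fun a => ‖c a + n‖) 0 := (hc.continuousAt.add continuousAt_const).norm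
    apply this.eventually_lt continuousAt_const
    rw [hc0]; simp
  have hall := (((hbn.and hcn).and hev).and hs).and ht
  obtain ⟨ρ₀, hρ₀, hball⟩ := Metric.eventually_nhds_iff_ball.mp hall
  refine ⟨ρ₀, hρ₀, fun ρ hρ hρρ => ?_⟩
  set B := Metric.ball (0 : E) ρ with hB
  have hBm : MeasurableSet B := measurableSet_ball
  have hsub : ∀ a ∈ B, a ∈ Metric.ball (0 : E) ρ₀ := fun a ha => Metric.ball_subset_ball hρρ ha
  have hBs : ∀ a ∈ B, a ∈ s := fun a ha => (hball a (hsub a ha)).1.2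
  have hBt : ∀ a ∈ B, a ∈ t := fun a ha => (hball a (hsub a ha)).2
  classical
  have eqb : ∀ a ∈ B, B.piecewise b 0 a = b a := fun a ha => piecewise_eq_of_mem _ _ _ ha
  have eqc : ∀ a ∈ B, B.piecewise c 0 a = c a := fun a ha => piecewise_eq_of_mem _ _ _ ha
  have cb : ContinuousOn b B := fun a ha => (hsd a (hBs a ha)).1.continuousAt.continuousWithinAt
  have cc : ContinuousOn c B := fun a ha => (htd a (hBt a ha)).1.continuousAt.continuousWithinAt
  have mb : Measurable (B.piecewise b 0) :=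
    cb.measurable_piecewise continuousOn_const hBm
  have mc : Measurable (B.piecewise c 0) :=
    cc.measurable_piecewise continuousOn_const hBm
  have ib : InjOn (B.piecewise b 0) B := by
    intro x hx y hy h
    rw [eqb x hx, eqb y hy] at h
    exact hsi (hBs x hx) (hBs y hy) h
  have ic : InjOn (B.piecewise c 0) B := by
    intro x hx y hy h
    rw [eqc x hx, eqc y hy] at h
    exact hti (hBt x hx) (hBt y hy) h
  refine ⟨B.piecewise b 0, B.piecewise c 0, ⟨mb, mc, ?_, ?_, ?_, ?_, ib, ic, ?_, ?_⟩⟩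
  · intro a ha; rw [eqb a ha]; exact (hball a (hsub a ha)).1.1.1.1
  · intro a ha; rw [eqc a ha]; exact (hball a (hsub a ha)).1.1.1.2
  · intro a ha; rw [eqb a ha, eqc a ha]; exact (hball a (hsub a ha)).1.1.2.1
  · intro a ha; rw [eqb a ha, eqc a ha]; exact (hball a (hsub a ha)).1.1.2.2
  · refine map_ac _ mb B hBm (fderiv ℝ b) ?_ (fun x hx => (hsd x (hBs x hx)).2) ib
    intro x hx
    exact ((hsd x (hBs x hx)).1.hasFDerivAt.hasFDerivWithinAt).congr (fun y hy => eqb y hy)
      (eqb x hx)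
  · refine map_ac _ mc B hBm (fderiv ℝ c) ?_ (fun x hx => (htd x (hBt x hx)).2) ic
    intro x hx
    exact ((htd x (hBt x hx)).1.hasFDerivAt.hasFDerivWithinAt).congr (fun y hy => eqc y hy)
      (eqc x hx)

end Vale.Agent.P121
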