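import Vale.Agent.P121.Feas

/-! The measure, the plan, and the contradiction. -/

namespace Vale.Agent.P121

open Real Filter Topology InnerProductSpace MeasureTheory Set
open scoped RealInnerProductSpace ENNReal

/-- The uniform probability on the ball. -/
noncomputable def nu (ρ : ℝ) : Measure E :=
  (volume (Metric.ball (0 : E) ρ))⁻¹ • volume.restrict (Metric.ball (0 : E) ρ)

lemma nu_prob {ρ : ℝ} (hρ0 : 0 < ρ) : IsProbabilityMeasure (nu ρ) := by
  constructor
  unfold nu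
  rw [Measure.smul_apply, Measure.restrict_apply_univ, smul_eq_mul]
  exact ENNReal.inv_mul_cancel (Metric.measure_ball_pos volume _ hρ0).ne' measure_ball_lt_top.ne

lemma nu_ae (ρ : ℝ) : ∀ᵐ a ∂(nu ρ), a ∈ Metric.ball (0 : E) ρ := by
  unfold nu
  exact Measure.ae_smul_measure (ae_restrict_mem measurableSet_ball) _

lemma nu_ac (ρ : ℝ) : nu ρ ≪ volume.restrict (Metric.ball (0 : E) ρ) := by
  unfold nu
  exact Measure.smul_absolutelyContinuous

/-- The measure. -/
noncomputable def mu (ρ : ℝ) (b c : Fin 2 → E → E) : Measure E :=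
  ∑ i : Fin 2, (6 : ℝ≥0∞)⁻¹ • (nu ρ + (nu ρ).map (b i) + (nu ρ).map (c i))

/-- The plan. -/
noncomputable def pl (ρ : ℝ) (b c : Fin 2 → E → E) : Measure (E × E × E) :=
  ∑ i : Fin 2, (6 : ℝ≥0∞)⁻¹ • ((nu ρ).map (fun a => (a, b i a, c i a))
    + (nu ρ).map (fun a => (b i a, c i a, a)) + (nu ρ).map (fun a => (c i a, a, b i a)))

section
variable {ρ : ℝ} {b c : Fin 2 → E → E} (hρ0 : 0 < ρ) (hρ : ρ ≤ 1/200)
  (hF : ∀ i, Fam (nn i) ρ (b i) (c i))

include hF in
lemma FF_meas (k : K) : Measurable (FF b c k) := by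
  rcases k with _ | ⟨i, s⟩
  · exact measurable_id
  · cases s
    · exact (hF i).cm
    · exact (hF i).bm

include hF in
lemma FF_inj (k : K) : InjOn (FF b c k) (Metric.ball (0 : E) ρ) := by
  rcases k with _ | ⟨i, s⟩
  · exact injOn_id _
  · cases s
    · exact (hF i).ci
    · exact (hF i).bi

include hF in
lemma mu_lintegral {f : E → ℝ≥0∞} (hf : Measurable f) :
    ∫⁻ x, f x ∂(mu ρ b c) = ∑ i : Fin 2, (6 : ℝ≥0∞)⁻¹ *
      (∫⁻ a, f a ∂(nu ρ) + ∫⁻ a, f (b i a) ∂(nu ρ) + ∫⁻ a, f (c i a) ∂(nu ρ)) := by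
  unfold mu
  rw [lintegral_finsetSum_measure]
  refine Finset.sum_congr rfl fun i _ => ?_
  rw [lintegral_smul_measure, lintegral_add_measure, lintegral_add_measure,
    lintegral_map hf (hF i).bm, lintegral_map hf (hF i).cm, smul_eq_mul]

include hF in
lemma mu_apply {s : Set E} (hs : MeasurableSet s) :
    mu ρ b c s = ∑ i : Fin 2, (6 : ℝ≥0∞)⁻¹ *
      (nu ρ (FF b c none ⁻¹' s) + nu ρ (FF b c (some (i, true)) ⁻¹' s)
        + nu ρ (FF b c (some (i, false)) ⁻¹' s)) := by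
  unfold mu
  rw [Measure.finsetSum_apply]
  refine Finset.sum_congr rfl fun i _ => ?_
  rw [Measure.smul_apply, Measure.add_apply, Measure.add_apply,
    Measure.map_apply (hF i).bm hs, Measure.map_apply (hF i).cm hs, smul_eq_mul]
  rfl

include hρ0 hF in
lemma mu_prob : IsProbabilityMeasure (mu ρ b c) := by
  have := nu_prob hρ0
  constructor
  rw [mu_apply hF MeasurableSet.univ]
  simp only [preimage_univ, measure_univ, Fin.sum_univ_two]
  have : (1 + 1 + 1 : ℝ≥0∞) = 3 := by norm_num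
  rw [this, ← mul_add]
  have h6 : (3 + 3 : ℝ≥0∞) = 6 := by norm_num
  rw [h6]
  exact ENNReal.inv_mul_cancel (by norm_num) (by norm_num)

include hF in
lemma mu_ac : mu ρ b c ≪ volume := by
  refine Measure.AbsolutelyContinuous.mk fun s hs h0 => ?_
  rw [mu_apply hF hs]
  have h1 : nu ρ (FF b c none ⁻¹' s) = 0 := by
    apply nu_ac ρ
    exact Measure.absolutelyContinuous_of_le Measure.restrict_le_self h0
  have hb : ∀ i, nu ρ (FF b c (some (i, true)) ⁻¹' s) = 0 := by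
    intro i
    apply nu_ac ρ
    have := (hF i).bac h0
    rwa [Measure.map_apply (hF i).bm hs] at this
  have hc : ∀ i, nu ρ (FF b c (some (i, false)) ⁻¹' s) = 0 := by
    intro i
    apply nu_ac ρ
    have := (hF i).cac h0
    rwa [Measure.map_apply (hF i).cm hs] at this
  simp [h1, hb, hc]

include hF in
lemma pl_lintegral {f : E × E × E → ℝ≥0∞} (hf : Measurable f) :
    ∫⁻ w, f w ∂(pl ρ b c) = ∑ i : Fin 2, (6 : ℝ≥0∞)⁻¹ *
      (∫⁻ a, f (a, b i a, c i a) ∂(nu ρ) + ∫⁻ a, f (b i a, c i a, a) ∂(nu ρ)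
        + ∫⁻ a, f (c i a, a, b i a) ∂(nu ρ)) := by
  unfold pl
  rw [lintegral_finsetSum_measure]
  refine Finset.sum_congr rfl fun i _ => ?_
  have hb := (hF i).bm
  have hc := (hF i).cm
  rw [lintegral_smul_measure, lintegral_add_measure, lintegral_add_measure,
    lintegral_map hf (by fun_prop), lintegral_map hf (by fun_prop),
    lintegral_map hf (by fun_prop), smul_eq_mul]

include hρ0 hF in
lemma pl_plan : IsPlan (mu ρ b c) (pl ρ b c) := by
  have := nu_prob hρ0
  have := mu_prob hρ0 hF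
  have key : ∀ g : E × E × E → E, Measurable g →
      (∀ f : E → ℝ≥0∞, Measurable f → ∫⁻ w, f (g w) ∂(pl ρ b c) = ∫⁻ x, f x ∂(mu ρ b c)) →
      (pl ρ b c).map g = mu ρ b c := by
    intro g hg h
    ext s hs
    rw [Measure.map_apply hg hs, ← lintegral_indicator_one hs, ← lintegral_indicator_one (hg hs)]
    rw [← h _ (measurable_one.indicator hs)]
    rfl
  have m1 : (pl ρ b c).map (fun w => w.1) = mu ρ b c := by
    apply key _ (by fun_prop)
    intro f hf
    rw [mu_lintegral hF hf, pl_lintegral hF (by fun_prop)]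
  have m2 : (pl ρ b c).map (fun w => w.2.1) = mu ρ b c := by
    apply key _ (by fun_prop)
    intro f hf
    rw [mu_lintegral hF hf, pl_lintegral hF (by fun_prop)]
    refine Finset.sum_congr rfl fun i _ => ?_
    dsimp only
    ring
  have m3 : (pl ρ b c).map (fun w => w.2.2) = mu ρ b c := by
    apply key _ (by fun_prop)
    intro f hf
    rw [mu_lintegral hF hf, pl_lintegral hF (by fun_prop)]
    refine Finset.sum_congr rfl fun i _ => ?_
    dsimp only
    ring
  refine ⟨⟨?_⟩, m1, m2, m3⟩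
  have : (pl ρ b c).map (fun w => w.1) univ = 1 := by rw [m1]; exact measure_univ
  rwa [Measure.map_apply (by fun_prop) MeasurableSet.univ, preimage_univ] at this

/-- The potential on the union of the clusters. -/
noncomputable def phi (ρ : ℝ) (b c : Fin 2 → E → E) (x : E) : ℝ :=
  ∑ k : K, Function.extend (fun a : Metric.ball (0 : E) ρ => FF b c k a)
    (fun a => ff b c k a) 0 x

include hF in
lemma ff_meas (k : K) : Measurable (ff b c k) := by
  have hu : Measurable uu := by unfold uu; fun_prop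
  have hw : ∀ n, Measurable (ww n) := by intro n; unfold ww; fun_prop
  rcases k with _ | ⟨i, s⟩
  · exact hu
  · have hb := (hF i).bm
    have hc := (hF i).cm
    cases s
    · exact (hw _).comp hc
    · show Measurable fun a => Cr a (b i a) (c i a) - uu a - ww (nn i) (c i a)
      have h1 : Measurable fun a => ww (nn i) (c i a) := (hw _).comp hc
      have h2 : Measurable fun a => Cr a (b i a) (c i a) := by unfold Cr; fun_prop
      exact (h2.sub hu).sub h1

include hF in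
lemma FF_emb (k : K) : MeasurableEmbedding (fun a : Metric.ball (0 : E) ρ => FF b c k a) := by
  have : StandardBorelSpace (Metric.ball (0 : E) ρ) := measurableSet_ball.standardBorel
  apply Measurable.measurableEmbedding
  · exact (FF_meas hF k).comp measurable_subtype_coe
  · intro x y h
    exact Subtype.ext (FF_inj hF k x.2 y.2 h)

include hF in
lemma phi_meas : Measurable (phi ρ b c) := by
  unfold phi
  refine Finset.measurable_fun_sum _ fun k _ => ?_
  exact (FF_emb hF k).measurable_extend ((ff_meas hF k).comp measurable_subtype_coe)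
    measurable_zero

include hρ hF in
lemma phi_eq (k : K) {a : E} (ha : a ∈ Metric.ball (0 : E) ρ) :
    phi ρ b c (FF b c k a) = ff b c k a := by
  unfold phi
  rw [Finset.sum_eq_single k]
  · exact (FF_emb hF k).injective.extend_apply (fun a => ff b c k a) 0 ⟨a, ha⟩
  · intro l _ hl
    rw [Function.extend_apply']
    · rfl
    · rintro ⟨a', h⟩
      exact cluster_disj hρ hF hl a'.2 ha h
  · intro h; exact absurd (Finset.mem_univ _) h

noncomputable def Phi (ρ : ℝ) (b c : Fin 2 → E → E) (x : E) : ℝ≥0∞ :=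
  ENNReal.ofReal (phi ρ b c x)

include hF in
lemma Phi_meas : Measurable (Phi ρ b c) := (phi_meas hF).ennreal_ofReal

/-- The union of clusters. -/
def UU (ρ : ℝ) (b c : Fin 2 → E → E) : Set E := ⋃ k : K, FF b c k '' Metric.ball (0 : E) ρ

include hF in
lemma UU_meas : MeasurableSet (UU ρ b c) :=
  MeasurableSet.iUnion fun k =>
    measurableSet_ball.image_of_measurable_injOn (FF_meas hF k) (FF_inj hF k)

include hF in
lemma UU_ae : ∀ᵐ x ∂(mu ρ b c), x ∈ UU ρ b c := by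
  rw [ae_iff]
  have hm : MeasurableSet {x | ¬ x ∈ UU ρ b c} := (UU_meas hF).compl
  rw [mu_apply hF hm]
  have h : ∀ k : K, nu ρ (FF b c k ⁻¹' {x | ¬ x ∈ UU ρ b c}) = 0 := by
    intro k
    have := nu_ae ρ
    rw [ae_iff] at this
    refine measure_mono_null ?_ this
    intro a ha hB
    exact ha (mem_iUnion.mpr ⟨k, mem_image_of_mem _ hB⟩)
  refine Finset.sum_eq_zero fun i _ => ?_
  rw [h, h, h, add_zero, add_zero, mul_zero]

include hρ hF in
lemma Phi_le {x y z : E} (hx : x ∈ UU ρ b c) (hy : y ∈ UU ρ b c) (hz : z ∈ UU ρ b c) :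
    Phi ρ b c x + Phi ρ b c y + Phi ρ b c z ≤ coulomb x y z := by
  obtain ⟨k, a, ha, rfl⟩ := mem_iUnion.mp hx
  obtain ⟨l, a', ha', rfl⟩ := mem_iUnion.mp hy
  obtain ⟨m, a'', ha'', rfl⟩ := mem_iUnion.mp hz
  unfold Phi
  rw [phi_eq hρ hF k ha, phi_eq hρ hF l ha', phi_eq hρ hF m ha'']
  rw [← ENNReal.ofReal_add (ff_nonneg hρ hF k ha) (ff_nonneg hρ hF l ha'),
    ← ENNReal.ofReal_add (add_nonneg (ff_nonneg hρ hF k ha) (ff_nonneg hρ hF l ha'))
      (ff_nonneg hρ hF m ha'')]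
  exact dual_le hρ hF k l m ha ha' ha''

include hρ hF in
lemma Phi_le_two {x : E} (hx : x ∈ UU ρ b c) : Phi ρ b c x ≤ 2 := by
  obtain ⟨k, a, ha, rfl⟩ := mem_iUnion.mp hx
  unfold Phi
  rw [phi_eq hρ hF k ha]
  calc ENNReal.ofReal (ff b c k a) ≤ ENNReal.ofReal 2 :=
        ENNReal.ofReal_le_ofReal (ff_le hρ hF k ha)
    _ = 2 := by simp

include hρ hF in
lemma Phi_first {a y z : E} (ha : a ∈ Metric.ball (0 : E) ρ) (hy : y ∈ UU ρ b c)
    (hz : z ∈ UU ρ b c) (he : Phi ρ b c a + Phi ρ b c y + Phi ρ b c z = coulomb a y z) :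
    ∃ p, y = FF b c (some p) a := by
  obtain ⟨l, a', ha', rfl⟩ := mem_iUnion.mp hy
  obtain ⟨m, a'', ha'', rfl⟩ := mem_iUnion.mp hz
  have h0 : phi ρ b c a = ff b c none a := phi_eq hρ hF none ha
  unfold Phi at he
  rw [h0, phi_eq hρ hF l ha', phi_eq hρ hF m ha''] at he
  rw [← ENNReal.ofReal_add (ff_nonneg hρ hF none ha) (ff_nonneg hρ hF l ha'),
    ← ENNReal.ofReal_add (add_nonneg (ff_nonneg hρ hF none ha) (ff_nonneg hρ hF l ha'))
      (ff_nonneg hρ hF m ha'')] at he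
  obtain ⟨p, hp, haa⟩ := (first hρ hF l m ha ha' ha'').2 he
  exact ⟨p, by rw [hp, haa]⟩

lemma coulomb_meas : Measurable fun w : E × E × E => coulomb w.1 w.2.1 w.2.2 := by
  unfold coulomb
  fun_prop

include hρ0 hρ hF in
/-- The Kantorovich value is at most three times the integral of the potential. -/
lemma kant_le : kantorovich (mu ρ b c) ≤ 3 * ∫⁻ x, Phi ρ b c x ∂(mu ρ b c) := by
  refine (iInf₂_le (pl ρ b c) (pl_plan hρ0 hF)).trans ?_
  rw [pl_lintegral hF coulomb_meas, mu_lintegral hF (Phi_meas hF), Finset.mul_sum]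
  refine Finset.sum_le_sum fun i _ => ?_
  have hB := nu_ae ρ
  have hPm := Phi_meas hF
  have hb := (hF i).bm
  have hc := (hF i).cm
  have e0 : ∀ a ∈ Metric.ball (0 : E) ρ,
      coulomb a (b i a) (c i a) = Phi ρ b c a + Phi ρ b c (b i a) + Phi ρ b c (c i a) := by
    intro a ha
    have h1 : phi ρ b c a = ff b c none a := phi_eq hρ hF none ha
    have h2 : phi ρ b c (b i a) = ff b c (some (i, true)) a := phi_eq hρ hF (some (i, true)) ha
    have h3 : phi ρ b c (c i a) = ff b c (some (i, false)) a := phi_eq hρ hF (some (i, false)) ha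
    have d1 : a ≠ b i a := cluster_disj hρ hF (k := none) (l := some (i, true)) (by simp) ha ha
    have d2 : a ≠ c i a := cluster_disj hρ hF (k := none) (l := some (i, false)) (by simp) ha ha
    have d3 : b i a ≠ c i a :=
      cluster_disj hρ hF (k := some (i, true)) (l := some (i, false)) (by simp) ha ha
    have n1 := ff_nonneg hρ hF none ha
    have n2 := ff_nonneg hρ hF (some (i, true)) ha
    have n3 := ff_nonneg hρ hF (some (i, false)) ha
    rw [coulomb_eq d1 d2 d3]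
    unfold Phi
    rw [h1, h2, h3, ← ENNReal.ofReal_add n1 n2, ← ENNReal.ofReal_add (add_nonneg n1 n2) n3]
    congr 1
    simp only [ff]
    ring
  have c1 : ∫⁻ a, coulomb a (b i a) (c i a) ∂(nu ρ)
      = ∫⁻ a, Phi ρ b c a ∂(nu ρ) + ∫⁻ a, Phi ρ b c (b i a) ∂(nu ρ)
        + ∫⁻ a, Phi ρ b c (c i a) ∂(nu ρ) := by
    rw [← lintegral_add_left hPm, ← lintegral_add_left (by fun_prop)]
    exact lintegral_congr_ae (hB.mono fun a ha => e0 a ha)
  have c2 : ∫⁻ a, coulomb (b i a) (c i a) a ∂(nu ρ) = ∫⁻ a, coulomb a (b i a) (c i a) ∂(nu ρ) :=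
    lintegral_congr fun a => by rw [coulomb_swap23, coulomb_swap12]
  have c3 : ∫⁻ a, coulomb (c i a) a (b i a) ∂(nu ρ) = ∫⁻ a, coulomb a (b i a) (c i a) ∂(nu ρ) :=
    lintegral_congr fun a => by rw [coulomb_swap12, coulomb_swap23]
  rw [c2, c3, c1]
  apply le_of_eq
  ring

include hρ0 hρ hF in
lemma Phi_int_lt : 3 * ∫⁻ x, Phi ρ b c x ∂(mu ρ b c) < ⊤ := by
  have := mu_prob hρ0 hF
  refine ENNReal.mul_lt_top (by norm_num) ?_
  calc ∫⁻ x, Phi ρ b c x ∂(mu ρ b c) ≤ ∫⁻ x, 2 ∂(mu ρ b c) :=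
        lintegral_mono_ae ((UU_ae hF).mono fun x hx => Phi_le_two hρ hF hx)
    _ = 2 := by simp
    _ < ⊤ := by norm_num

include hF in
lemma nu_ac_mu : nu ρ ≪ mu ρ b c := by
  refine Measure.AbsolutelyContinuous.mk fun s hs h0 => ?_
  rw [mu_apply hF hs, Fin.sum_univ_two, add_eq_zero] at h0
  have h1 := h0.1
  rw [mul_eq_zero] at h1
  rcases h1 with h1 | h1
  · simp at h1
  · rw [add_eq_zero, add_eq_zero] at h1
    exact h1.1.1

include hρ hF in
lemma nu_pre {k l : K} {A : Set E} (hA : A ⊆ Metric.ball (0 : E) ρ) :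
    nu ρ (FF b c k ⁻¹' (FF b c l '' A)) = if k = l then nu ρ A else 0 := by
  split_ifs with h
  · subst h
    apply measure_congr
    filter_upwards [nu_ae ρ] with a ha
    apply propext
    constructor
    · rintro ⟨a', ha', he⟩
      have := FF_inj hF k (hA ha') ha he
      rw [← this]; exact ha'
    · intro h
      exact ⟨a, h, rfl⟩
  · have h0 := nu_ae ρ
    rw [ae_iff] at h0
    refine measure_mono_null ?_ h0
    rintro a ⟨a', ha', he⟩ hB
    exact cluster_disj hρ hF h hB (hA ha') he.symm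

include hρ hF in
/-- Images under an outer map have small measure. -/
lemma mu_image (p : Fin 2 × Bool) {A : Set E} (hA : A ⊆ Metric.ball (0 : E) ρ)
    (hAm : MeasurableSet A) :
    mu ρ b c (FF b c (some p) '' A) = (6 : ℝ≥0∞)⁻¹ * nu ρ A := by
  have hm : MeasurableSet (FF b c (some p) '' A) :=
    hAm.image_of_measurable_injOn (FF_meas hF _) ((FF_inj hF _).mono hA)
  rw [mu_apply hF hm, Fin.sum_univ_two]
  simp only [nu_pre hρ hF hA]
  rcases p with ⟨i, s⟩
  fin_cases i <;> cases s <;> simp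

include hF in
lemma mu_center {A : Set E} (hAm : MeasurableSet A) :
    (6 : ℝ≥0∞)⁻¹ * nu ρ A + (6 : ℝ≥0∞)⁻¹ * nu ρ A ≤ mu ρ b c A := by
  rw [mu_apply hF hAm, Fin.sum_univ_two]
  gcongr
  · exact le_trans le_self_add le_self_add
  · exact le_trans le_self_add le_self_add

include hρ0 hρ hF in
/-- No optimal Monge plan. -/
lemma no_monge (T₂ T₃ : E → E) (h2 : Measurable T₂) (h3 : Measurable T₃)
    (e2 : (mu ρ b c).map T₂ = mu ρ b c) (e3 : (mu ρ b c).map T₃ = mu ρ b c) :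
    ∫⁻ x, coulomb x (T₂ x) (T₃ x) ∂(mu ρ b c) ≠ kantorovich (mu ρ b c) := by
  intro heq
  have := mu_prob hρ0 hF
  have := nu_prob hρ0
  have hPm := Phi_meas hF
  set μ := mu ρ b c with hμ
  have hU := UU_ae hF
  have hU2 : ∀ᵐ x ∂μ, T₂ x ∈ UU ρ b c := by
    have := hU
    rw [← hμ, ← e2] at this
    exact ae_of_ae_map h2.aemeasurable this
  have hU3 : ∀ᵐ x ∂μ, T₃ x ∈ UU ρ b c := by
    have := hU
    rw [← hμ, ← e3] at this
    exact ae_of_ae_map h3.aemeasurable this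
  have hle : (fun x => Phi ρ b c x + Phi ρ b c (T₂ x) + Phi ρ b c (T₃ x))
      ≤ᵐ[μ] fun x => coulomb x (T₂ x) (T₃ x) := by
    filter_upwards [hU, hU2, hU3] with x hx hx2 hx3
    exact Phi_le hρ hF hx hx2 hx3
  have hint : ∫⁻ x, (Phi ρ b c x + Phi ρ b c (T₂ x) + Phi ρ b c (T₃ x)) ∂μ
      = 3 * ∫⁻ x, Phi ρ b c x ∂μ := by
    have i2 : ∫⁻ x, Phi ρ b c (T₂ x) ∂μ = ∫⁻ x, Phi ρ b c x ∂μ := by
      conv_rhs => rw [← e2]
      rw [lintegral_map hPm h2]
    have i3 : ∫⁻ x, Phi ρ b c (T₃ x) ∂μ = ∫⁻ x, Phi ρ b c x ∂μ := by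
      conv_rhs => rw [← e3]
      rw [lintegral_map hPm h3]
    rw [lintegral_add_left (by fun_prop), lintegral_add_left hPm, i2, i3]
    ring
  have hcm : AEMeasurable (fun x => coulomb x (T₂ x) (T₃ x)) μ := by
    apply Measurable.aemeasurable
    unfold coulomb
    fun_prop
  have hfin : ∫⁻ x, (Phi ρ b c x + Phi ρ b c (T₂ x) + Phi ρ b c (T₃ x)) ∂μ ≠ ⊤ := by
    rw [hint]; exact (Phi_int_lt hρ0 hρ hF).ne
  have hge : ∫⁻ x, coulomb x (T₂ x) (T₃ x) ∂μ
      ≤ ∫⁻ x, (Phi ρ b c x + Phi ρ b c (T₂ x) + Phi ρ b c (T₃ x)) ∂μ := by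
    rw [heq, hint]; exact kant_le hρ0 hρ hF
  have hae := ae_eq_of_ae_le_of_lintegral_le hle hfin hcm hge
  -- transfer to the centre
  have hnu : ∀ᵐ a ∂(nu ρ), ∃ p, T₂ a = FF b c (some p) a := by
    have t1 := (nu_ac_mu hF).ae_le hU2
    have t2 := (nu_ac_mu hF).ae_le hU3
    have t3 := (nu_ac_mu hF).ae_le hae
    filter_upwards [nu_ae ρ, t1, t2, t3] with a ha ha2 ha3 ha4
    exact Phi_first hρ hF ha ha2 ha3 ha4
  have hzero : ∀ p, nu ρ {a | a ∈ Metric.ball (0 : E) ρ ∧ T₂ a = FF b c (some p) a} = 0 := by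
    intro p
    set A := {a | a ∈ Metric.ball (0 : E) ρ ∧ T₂ a = FF b c (some p) a} with hA
    have hAB : A ⊆ Metric.ball (0 : E) ρ := fun a ha => ha.1
    have hAm : MeasurableSet A :=
      measurableSet_ball.inter (measurableSet_eq_fun h2 (FF_meas hF _))
    have hm : MeasurableSet (FF b c (some p) '' A) :=
      hAm.image_of_measurable_injOn (FF_meas hF _) ((FF_inj hF _).mono hAB)
    have s1 := mu_center hF (ρ := ρ) hAm
    have s2 : μ A ≤ μ (FF b c (some p) '' A) := by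
      calc μ A ≤ μ (T₂ ⁻¹' (FF b c (some p) '' A)) := by
            apply measure_mono
            intro a ha
            exact ⟨a, ha, ha.2.symm⟩
        _ = μ.map T₂ (FF b c (some p) '' A) := (Measure.map_apply h2 hm).symm
        _ = μ (FF b c (some p) '' A) := by rw [e2]
    have s3 := mu_image hρ hF p hAB hAm
    rw [hμ] at s2
    rw [s3] at s2
    have s4 := s1.trans s2
    have hfinA : (6 : ℝ≥0∞)⁻¹ * nu ρ A ≠ ⊤ :=
      ENNReal.mul_ne_top (by norm_num) (measure_ne_top _ _)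
    have s5 : (6 : ℝ≥0∞)⁻¹ * nu ρ A = 0 := by
      have : (6 : ℝ≥0∞)⁻¹ * nu ρ A + (6 : ℝ≥0∞)⁻¹ * nu ρ A ≤ (6 : ℝ≥0∞)⁻¹ * nu ρ A + 0 := by
        rwa [add_zero]
      have := (ENNReal.add_le_add_iff_left hfinA).mp this
      exact le_antisymm this zero_le
    rcases mul_eq_zero.mp s5 with h | h
    · simp at h
    · exact h
  have hall : ∀ᵐ a ∂(nu ρ), ∀ p, ¬ (a ∈ Metric.ball (0 : E) ρ ∧ T₂ a = FF b c (some p) a) := by
    rw [ae_all_iff]
    intro p
    rw [ae_iff]
    simpa using hzero p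
  have hF' : ∀ᵐ a ∂(nu ρ), False := by
    filter_upwards [nu_ae ρ, hnu, hall] with a ha ⟨p, hp⟩ h
    exact h p ⟨ha, hp⟩
  simp only [Filter.eventually_false_iff_eq_bot, ae_eq_bot] at hF'
  have : nu ρ univ = 1 := measure_univ
  rw [hF'] at this
  simp at this

end

/-- Existence of a measure without an optimal Monge plan. -/
theorem main : ∃ μ : Measure E, IsProbabilityMeasure μ ∧ μ ≪ volume ∧ kantorovich μ < ⊤ ∧
    ∀ T₂ T₃ : E → E, Measurable T₂ → Measurable T₃ → μ.map T₂ = μ → μ.map T₃ = μ →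
      ∫⁻ x, coulomb x (T₂ x) (T₃ x) ∂μ ≠ kantorovich μ := by
  obtain ⟨r0, hr0, h0⟩ := exists_fam (nn 0) (nn_norm 0)
  obtain ⟨r1, hr1, h1⟩ := exists_fam (nn 1) (nn_norm 1)
  obtain ⟨ρ, hρ0, hρ, hρ1, hρ2⟩ : ∃ ρ : ℝ, 0 < ρ ∧ ρ ≤ 1/200 ∧ ρ ≤ r0 ∧ ρ ≤ r1 :=
    ⟨min (1/200) (min r0 r1), by positivity, min_le_left _ _,
      (min_le_right _ _).trans (min_le_left _ _), (min_le_right _ _).trans (min_le_right _ _)⟩
  obtain ⟨b0, c0, F0⟩ := h0 ρ hρ0 hρ1
  obtain ⟨b1, c1, F1⟩ := h1 ρ hρ0 hρ2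
  have hF : ∀ i, Fam (nn i) ρ ((![b0, b1] : Fin 2 → E → E) i) ((![c0, c1] : Fin 2 → E → E) i) := by
    intro i
    fin_cases i
    · exact F0
    · exact F1
  refine ⟨mu ρ ![b0, b1] ![c0, c1], mu_prob hρ0 hF, mu_ac hF,
    (kant_le hρ0 hρ hF).trans_lt (Phi_int_lt hρ0 hρ hF), ?_⟩
  exact fun T₂ T₃ h2 h3 e2 e3 => no_monge hρ0 hρ hF T₂ T₃ h2 h3 e2 e3

end Vale.Agent.P121
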